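import Mathlib

/-!
# P358: counting eigenvalues above a level

`cnt H h c` is the number of eigenvalues of the Hermitian matrix `H` above `c`.  Upper bounds come
from subspaces where the quadratic form exceeds `c`; this gives Weyl monotonicity and the comparison
of the pencil count with the eigenvalues of `Aᴴ (t + X)⁻¹ A`.
-/

open Matrix
open scoped ComplexOrder

namespace Vale.Agent.P358

section basic

variable {α α' : Type} [Fintype α] [DecidableEq α] [Fintype α'] [DecidableEq α']

/-- Number of eigenvalues above `c`. -/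
noncomputable def cnt (H : Matrix α α ℂ) (h : H.IsHermitian) (c : ℝ) : ℕ :=
  (Finset.univ.filter fun j => c < h.eigenvalues j).card

/-- The quadratic form. -/
noncomputable def qf (H : Matrix α α ℂ) (v : α → ℂ) : ℝ := (star v ⬝ᵥ (H *ᵥ v)).re

/-- Squared norm. -/
noncomputable def nsq (v : α → ℂ) : ℝ := (star v ⬝ᵥ v).re

omit [DecidableEq α] in
lemma nsq_eq (v : α → ℂ) : nsq v = ∑ j, ‖v j‖ ^ 2 := by
  unfold nsq
  simp only [dotProduct, Complex.re_sum, Pi.star_apply]
  apply Finset.sum_congr rfl; intro j _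
  rw [Complex.star_def, mul_comm, Complex.mul_conj, Complex.normSq_eq_norm_sq, Complex.ofReal_re]

omit [DecidableEq α] in
lemma nsq_nonneg (v : α → ℂ) : 0 ≤ nsq v := by
  rw [nsq_eq]; positivity

omit [DecidableEq α] in
lemma nsq_pos {v : α → ℂ} (hv : v ≠ 0) : 0 < nsq v := by
  rw [nsq_eq]
  obtain ⟨j, hj⟩ := Function.ne_iff.mp hv
  apply Finset.sum_pos' (fun _ _ => by positivity) ⟨j, Finset.mem_univ _, ?_⟩
  have : 0 < ‖v j‖ := norm_pos_iff.mpr hj
  positivity

/-- Quadratic form of a unitary conjugate of a diagonal matrix. -/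
lemma qf_unitary_diag (U : Matrix α α ℂ) (d : α → ℝ) (v : α → ℂ) :
    qf (U * diagonal (fun i => ((d i : ℝ) : ℂ)) * Uᴴ) v = ∑ j, d j * ‖(Uᴴ *ᵥ v) j‖ ^ 2 := by
  unfold qf
  have hst : star v ᵥ* U = star (Uᴴ *ᵥ v) := by rw [star_mulVec, conjTranspose_conjTranspose]
  rw [← mulVec_mulVec, ← mulVec_mulVec, dotProduct_mulVec, hst]
  simp only [dotProduct, Complex.re_sum, Pi.star_apply, mulVec_diagonal]
  apply Finset.sum_congr rfl; intro j _
  have : star ((Uᴴ *ᵥ v) j) * (((d j : ℝ) : ℂ) * (Uᴴ *ᵥ v) j)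
      = ((d j * ‖(Uᴴ *ᵥ v) j‖ ^ 2 : ℝ) : ℂ) := by
    have h := Complex.mul_conj ((Uᴴ *ᵥ v) j)
    rw [Complex.normSq_eq_norm_sq] at h
    rw [Complex.star_def]
    push_cast at h ⊢
    linear_combination (d j : ℂ) * h
  rw [this, Complex.ofReal_re]

/-- A unitary preserves the squared norm. -/
lemma nsq_unitary (U : Matrix α α ℂ) (hU : U ∈ unitaryGroup α ℂ) (v : α → ℂ) :
    nsq (Uᴴ *ᵥ v) = nsq v := by
  have h1 : U * Uᴴ = 1 := by
    simpa [star_eq_conjTranspose] using (mem_unitaryGroup_iff (A := U)).mp hU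
  unfold nsq
  rw [star_mulVec, conjTranspose_conjTranspose, dotProduct_mulVec, vecMul_vecMul, h1, vecMul_one]

/-- The spectral form of a Hermitian matrix. -/
lemma herm_spectral (H : Matrix α α ℂ) (h : H.IsHermitian) :
    H = (h.eigenvectorUnitary : Matrix α α ℂ) * diagonal (fun i => ((h.eigenvalues i : ℝ) : ℂ)) *
      (h.eigenvectorUnitary : Matrix α α ℂ)ᴴ := by
  have := h.spectral_theorem
  rw [Unitary.conjStarAlgAut_apply] at this
  simpa [Function.comp_def, star_eq_conjTranspose] using this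

/-- Extension by zero from the set of indices with eigenvalue above `c`. -/
noncomputable def extZ (p : α → Prop) [DecidablePred p] : ({j // p j} → ℂ) →ₗ[ℂ] (α → ℂ) where
  toFun z j := if hj : p j then z ⟨j, hj⟩ else 0
  map_add' z z' := by
    funext j; by_cases hj : p j <;> simp [hj]
  map_smul' s z := by
    funext j; by_cases hj : p j <;> simp [hj]

omit [Fintype α] [DecidableEq α] in
lemma extZ_inj (p : α → Prop) [DecidablePred p] {z : {j // p j} → ℂ} (hz : z ≠ 0) :
    extZ p z ≠ 0 := by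
  obtain ⟨j, hj⟩ := Function.ne_iff.mp hz
  intro h0
  have := congrFun h0 j.1
  simp only [extZ, LinearMap.coe_mk, AddHom.coe_mk, Pi.zero_apply, j.2, dite_true] at this
  exact hj this

/-- **Transport principle**: a linear map carrying the positive region of `H - c`
into the positive region of `H' - c'` bounds the counts. -/
theorem cnt_le_of_map (H : Matrix α α ℂ) (h : H.IsHermitian) (H' : Matrix α' α' ℂ)
    (h' : H'.IsHermitian) (c c' : ℝ) (τ : (α → ℂ) →ₗ[ℂ] (α' → ℂ))
    (hτ : ∀ v, v ≠ 0 → c * nsq v < qf H v → τ v ≠ 0 ∧ c' * nsq (τ v) < qf H' (τ v)) :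
    cnt H h c ≤ cnt H' h' c' := by
  classical
  set U : Matrix α α ℂ := (h.eigenvectorUnitary : Matrix α α ℂ) with hUdef
  set U' : Matrix α' α' ℂ := (h'.eigenvectorUnitary : Matrix α' α' ℂ) with hU'def
  have hU : U ∈ unitaryGroup α ℂ := h.eigenvectorUnitary.2
  have hU' : U' ∈ unitaryGroup α' ℂ := h'.eigenvectorUnitary.2
  have hUU : Uᴴ * U = 1 := by
    simpa [star_eq_conjTranspose] using (mem_unitaryGroup_iff' (A := U)).mp hU
  let p : α → Prop := fun j => c < h.eigenvalues j
  let p' : α' → Prop := fun j => c' < h'.eigenvalues j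
  -- the map between coordinates
  let E : ({j // p j} → ℂ) →ₗ[ℂ] (α → ℂ) := (Matrix.mulVecLin U).comp (extZ p)
  let Ψ : ({j // p j} → ℂ) →ₗ[ℂ] ({j // p' j} → ℂ) :=
    (LinearMap.funLeft ℂ ℂ (Subtype.val : {j // p' j} → α')).comp
      ((Matrix.mulVecLin U'ᴴ).comp (τ.comp E))
  have hinj : Function.Injective Ψ := by
    rw [← LinearMap.ker_eq_bot, LinearMap.ker_eq_bot']
    intro z hz
    by_contra hz0
    -- v = E z
    set v := E z with hv
    have hcoord : Uᴴ *ᵥ v = extZ p z := by
      simp only [hv, E, LinearMap.comp_apply, Matrix.mulVecLin_apply]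
      rw [mulVec_mulVec, hUU, one_mulVec]
    have hv0 : v ≠ 0 := by
      intro h0
      apply extZ_inj p hz0
      rw [← hcoord, h0, mulVec_zero]
    have hqf : c * nsq v < qf H v := by
      have e1 : nsq v = nsq (extZ p z) := by rw [← hcoord, nsq_unitary U hU]
      have e2 : qf H v = ∑ j, h.eigenvalues j * ‖(extZ p z) j‖ ^ 2 := by
        rw [← hcoord]
        conv_lhs => rw [herm_spectral H h]
        exact qf_unitary_diag _ _ _
      rw [e1, e2, nsq_eq, Finset.mul_sum]
      have hnz : extZ p z ≠ 0 := extZ_inj p hz0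
      obtain ⟨j0, hj0⟩ := Function.ne_iff.mp hnz
      apply Finset.sum_lt_sum
      · intro j _
        by_cases hj : p j
        · exact mul_le_mul_of_nonneg_right (le_of_lt hj) (by positivity)
        · have : (extZ p z) j = 0 := by simp [extZ, hj]
          simp [this]
      · refine ⟨j0, Finset.mem_univ _, ?_⟩
        have hj : p j0 := by
          by_contra hj
          apply hj0
          simp [extZ, hj]
        apply mul_lt_mul_of_pos_right hj
        have : 0 < ‖(extZ p z) j0‖ := norm_pos_iff.mpr hj0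
        positivity
    obtain ⟨hτ0, hτ1⟩ := hτ v hv0 hqf
    -- coordinates of τ v vanish where eigenvalue above c'
    have hzero : ∀ j, p' j → (U'ᴴ *ᵥ (τ v)) j = 0 := by
      intro j hj
      have := congrFun hz ⟨j, hj⟩
      simpa [Ψ, LinearMap.funLeft_apply] using this
    have e1 : nsq (τ v) = nsq (U'ᴴ *ᵥ (τ v)) := by rw [nsq_unitary U' hU']
    have e2 : qf H' (τ v) = ∑ j, h'.eigenvalues j * ‖(U'ᴴ *ᵥ (τ v)) j‖ ^ 2 := by
      conv_lhs => rw [herm_spectral H' h']
      exact qf_unitary_diag _ _ _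
    have : qf H' (τ v) ≤ c' * nsq (τ v) := by
      rw [e1, e2, nsq_eq, Finset.mul_sum]
      apply Finset.sum_le_sum
      intro j _
      by_cases hj : p' j
      · rw [hzero j hj]; simp
      · exact mul_le_mul_of_nonneg_right (le_of_not_gt hj) (by positivity)
    linarith
  have := LinearMap.finrank_le_finrank_of_injective hinj
  rw [Module.finrank_fintype_fun_eq_card, Module.finrank_fintype_fun_eq_card,
    Fintype.card_subtype, Fintype.card_subtype] at this
  exact this

/-- Weyl monotonicity of the counts. -/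
theorem cnt_mono (H H' : Matrix α α ℂ) (h : H.IsHermitian) (h' : H'.IsHermitian)
    (hle : (H' - H).PosSemidef) (c : ℝ) : cnt H h c ≤ cnt H' h' c := by
  apply cnt_le_of_map H h H' h' c c LinearMap.id
  intro v hv hlt
  refine ⟨hv, ?_⟩
  have hnn := (hle.re_dotProduct_nonneg v)
  have e : qf H' v = qf H v + (star v ⬝ᵥ ((H' - H) *ᵥ v)).re := by
    unfold qf
    rw [sub_mulVec, dotProduct_sub, Complex.sub_re]
    ring
  simp only [LinearMap.id_coe, id_eq]
  rw [e]
  have : 0 ≤ (star v ⬝ᵥ ((H' - H) *ᵥ v)).re := by simpa using hnn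
  linarith

/-- The count through the sorted eigenvalues. -/
lemma cnt_eq_fin (H : Matrix α α ℂ) (h : H.IsHermitian) (c : ℝ) :
    cnt H h c = (Finset.univ.filter fun s : Fin (Fintype.card α) => c < h.eigenvalues₀ s).card := by
  unfold cnt
  apply Finset.card_bij (fun j _ => (Fintype.equivOfCardEq (Fintype.card_fin _)).symm j)
  · intro j hj
    rw [Finset.mem_filter] at hj ⊢
    exact ⟨Finset.mem_univ _, hj.2⟩
  · intro j _ j' _ hjj
    exact (Fintype.equivOfCardEq (Fintype.card_fin _)).symm.injective hjj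
  · intro s hs
    refine ⟨(Fintype.equivOfCardEq (Fintype.card_fin _)) s, ?_, by simp⟩
    rw [Finset.mem_filter] at hs ⊢
    refine ⟨Finset.mem_univ _, ?_⟩
    show c < h.eigenvalues₀ ((Fintype.equivOfCardEq (Fintype.card_fin _)).symm
      ((Fintype.equivOfCardEq (Fintype.card_fin _)) s))
    rw [Equiv.symm_apply_apply]
    exact hs.2

/-- Weyl monotonicity of the sorted eigenvalues. -/
theorem eigenvalues_mono (H H' : Matrix α α ℂ) (h : H.IsHermitian) (h' : H'.IsHermitian)
    (hle : (H' - H).PosSemidef) (j : α) : h.eigenvalues j ≤ h'.eigenvalues j := by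
  by_contra hcon
  rw [not_le] at hcon
  have hc := cnt_mono H H' h h' hle (h'.eigenvalues j)
  rw [cnt_eq_fin, cnt_eq_fin] at hc
  set r := (Fintype.equivOfCardEq (Fintype.card_fin _)).symm j with hr
  have h1 : Finset.Iic r ⊆ Finset.univ.filter
      (fun s : Fin (Fintype.card α) => h'.eigenvalues j < h.eigenvalues₀ s) := by
    intro s hs
    simp only [Finset.mem_Iic] at hs
    simp only [Finset.mem_filter, Finset.mem_univ, true_and]
    exact lt_of_lt_of_le hcon (h.eigenvalues₀_antitone hs)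
  have h2 : Finset.univ.filter
      (fun s : Fin (Fintype.card α) => h'.eigenvalues j < h'.eigenvalues₀ s) ⊆ Finset.Iio r := by
    intro s hs
    simp only [Finset.mem_filter, Finset.mem_univ, true_and] at hs
    simp only [Finset.mem_Iio]
    by_contra hsr
    rw [not_lt] at hsr
    exact absurd hs (not_lt.mpr (h'.eigenvalues₀_antitone hsr))
  have c1 := Finset.card_le_card h1
  have c2 := Finset.card_le_card h2
  rw [Fin.card_Iic] at c1
  rw [Fin.card_Iio] at c2
  omega

end basic

section pencil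

variable {α β : Type} [Fintype α] [DecidableEq α] [Fintype β] [DecidableEq β]

lemma qf_add_smul (G : Matrix α α ℂ) (hG : G.IsHermitian) (v y : α → ℂ) (s : ℝ) :
    qf G (v + (s : ℂ) • y) = qf G v + 2 * s * (star v ⬝ᵥ (G *ᵥ y)).re + s ^ 2 * qf G y := by
  have hcross : star y ⬝ᵥ (G *ᵥ v) = star (star v ⬝ᵥ (G *ᵥ y)) := by
    rw [star_dotProduct, star_mulVec, hG.eq, ← dotProduct_mulVec]
  unfold qf
  rw [mulVec_add, mulVec_smul, star_add, star_smul, dotProduct_add, add_dotProduct, add_dotProduct,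
    dotProduct_smul, smul_dotProduct, smul_dotProduct, dotProduct_smul, hcross]
  simp only [Complex.add_re, smul_eq_mul, Complex.star_def, Complex.conj_ofReal, Complex.mul_re,
    Complex.ofReal_re, Complex.ofReal_im, Complex.mul_im, Complex.conj_re]
  ring

/-- Cauchy-Schwarz for a positive definite form and its inverse. -/
lemma cs_posDef (G : Matrix α α ℂ) (hG : G.PosDef) (v w : α → ℂ) :
    ((star v ⬝ᵥ w).re) ^ 2 ≤ qf G v * qf G⁻¹ w := by
  have hu : IsUnit G.det := (Matrix.isUnit_iff_isUnit_det G).mp hG.isUnit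
  set y := G⁻¹ *ᵥ w with hy
  have hGy : G *ᵥ y = w := by rw [hy, mulVec_mulVec, Matrix.mul_nonsing_inv G hu, one_mulVec]
  have e1 : qf G⁻¹ w = qf G y := by
    unfold qf
    rw [← hy, hGy]
    conv_lhs => rw [← hGy]
    rw [star_mulVec, hG.isHermitian.eq, ← dotProduct_mulVec, hGy]
  have hnn : ∀ s : ℝ, 0 ≤ qf G y * (s * s) + (2 * (star v ⬝ᵥ w).re) * s + qf G v := by
    intro s
    have h0 := hG.posSemidef.re_dotProduct_nonneg (v + (s : ℂ) • y)
    have h1 : 0 ≤ qf G (v + (s : ℂ) • y) := by simpa [qf] using h0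
    rw [qf_add_smul G hG.isHermitian, hGy] at h1
    nlinarith
  have hd := discrim_le_zero hnn
  unfold discrim at hd
  rw [e1]
  nlinarith

/-- The shift `t + X`. -/
noncomputable def shiftG (t : ℝ) (X : Matrix α α ℂ) : Matrix α α ℂ :=
  (t : ℂ) • (1 : Matrix α α ℂ) + X

lemma shiftG_posDef {t : ℝ} (ht : 0 < t) {X : Matrix α α ℂ} (hX : X.PosSemidef) :
    (shiftG t X).PosDef := by
  unfold shiftG
  have h1 : ((t : ℂ) • (1 : Matrix α α ℂ)).PosDef := by
    have : ((t : ℂ) • (1 : Matrix α α ℂ)) = t • (1 : Matrix α α ℂ) := by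
      ext i j; simp [Matrix.smul_apply]
    rw [this]
    exact Matrix.PosDef.one.smul ht
  exact h1.add_posSemidef hX

/-- The matrix `Aᴴ (t + X)⁻¹ A`. -/
noncomputable def Ct (A : Matrix α β ℂ) (X : Matrix α α ℂ) (t : ℝ) : Matrix β β ℂ :=
  Aᴴ * (shiftG t X)⁻¹ * A

lemma Ct_posSemidef (A : Matrix α β ℂ) {X : Matrix α α ℂ} (hX : X.PosSemidef) {t : ℝ}
    (ht : 0 < t) : (Ct A X t).PosSemidef := by
  unfold Ct
  have h1 := ((shiftG_posDef ht hX).inv).posSemidef
  have := h1.conjTranspose_mul_mul_same A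
  exact this

/-- The pencil `P / l - X`, with `P = A Aᴴ`. -/
noncomputable def pen (A : Matrix α β ℂ) (X : Matrix α α ℂ) (l : ℝ) : Matrix α α ℂ :=
  ((l⁻¹ : ℝ) : ℂ) • (A * Aᴴ) - X

lemma pen_isHermitian (A : Matrix α β ℂ) {X : Matrix α α ℂ} (hX : X.IsHermitian) (l : ℝ) :
    (pen A X l).IsHermitian := by
  unfold pen
  apply IsHermitian.sub _ hX
  have h1 : (A * Aᴴ).IsHermitian := isHermitian_mul_conjTranspose_self A
  unfold IsHermitian at h1 ⊢
  rw [conjTranspose_smul, h1]
  simp

lemma qf_self_mul (A : Matrix α β ℂ) (v : α → ℂ) : qf (A * Aᴴ) v = nsq (Aᴴ *ᵥ v) := by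
  unfold qf nsq
  rw [← mulVec_mulVec, dotProduct_mulVec, star_mulVec, conjTranspose_conjTranspose]

/-- **Pencil count**: if `P / l - X` has `r` eigenvalues above `t` then `Aᴴ (t + X)⁻¹ A` has at least
`r` eigenvalues above `l`. -/
theorem cnt_pen_le (A : Matrix α β ℂ) {X : Matrix α α ℂ} (hX : X.PosSemidef) {t l : ℝ}
    (ht : 0 < t) (hl : 0 < l) (hP : (pen A X l).IsHermitian) (hC : (Ct A X t).IsHermitian) :
    cnt (pen A X l) hP t ≤ cnt (Ct A X t) hC l := by
  apply cnt_le_of_map _ hP _ hC t l (Matrix.mulVecLin Aᴴ)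
  intro v hv hlt
  simp only [Matrix.mulVecLin_apply]
  set u := Aᴴ *ᵥ v with hu
  set G := shiftG t X with hGdef
  have hG : G.PosDef := shiftG_posDef ht hX
  have e1 : qf (pen A X l) v = l⁻¹ * nsq u - qf X v := by
    unfold pen
    have : qf (((l⁻¹ : ℝ) : ℂ) • (A * Aᴴ) - X) v
        = (l⁻¹ : ℝ) * qf (A * Aᴴ) v - qf X v := by
      unfold qf
      rw [sub_mulVec, smul_mulVec, dotProduct_sub, dotProduct_smul, Complex.sub_re]
      simp
    rw [this, qf_self_mul]
  have e2 : qf G v = t * nsq v + qf X v := by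
    unfold qf nsq
    rw [hGdef]
    unfold shiftG
    rw [add_mulVec, smul_mulVec, one_mulVec, dotProduct_add, dotProduct_smul, Complex.add_re]
    simp
  have hqG : 0 < qf G v := by
    have := hG.re_dotProduct_pos hv
    simpa [qf] using this
  have hlq : l * qf G v < nsq u := by
    rw [e1] at hlt
    rw [e2]
    have h3 : t * nsq v + qf X v < l⁻¹ * nsq u := by linarith
    have := mul_lt_mul_of_pos_left h3 hl
    rwa [← mul_assoc, mul_inv_cancel₀ hl.ne', one_mul] at this
  have hnu : 0 < nsq u := lt_trans (mul_pos hl hqG) hlq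
  have hu0 : u ≠ 0 := by
    intro h0
    rw [h0] at hnu
    simp [nsq] at hnu
  refine ⟨hu0, ?_⟩
  set w := A *ᵥ u with hw
  have e3 : qf (Ct A X t) u = qf G⁻¹ w := by
    unfold qf Ct
    have hs : star u ᵥ* Aᴴ = star w := (star_mulVec A u).symm
    rw [← hGdef, ← mulVec_mulVec, ← mulVec_mulVec, dotProduct_mulVec, hs]
  have e4 : (star v ⬝ᵥ w).re = nsq u := by
    have := qf_self_mul A v
    unfold qf at this
    rw [← mulVec_mulVec] at this
    exact this
  have hcs := cs_posDef G hG v w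
  rw [e4] at hcs
  rw [e3]
  -- n^2 ≤ q Q, l q < n
  have hq := hqG
  set n := nsq u
  set q := qf G v
  set Q := qf G⁻¹ w
  have h5 : l * n * q < q * Q := by
    have : l * q * n < n * n := mul_lt_mul_of_pos_right hlq hnu
    nlinarith
  have h6 : q * (l * n) < q * Q := by nlinarith
  exact lt_of_mul_lt_mul_left h6 hq.le

/-- The pencil in the variable `w = l⁻¹`. -/
noncomputable def penW (A : Matrix α β ℂ) (X : Matrix α α ℂ) (w : ℝ) : Matrix α α ℂ :=
  ((w : ℝ) : ℂ) • (A * Aᴴ) - X

lemma penW_isHermitian (A : Matrix α β ℂ) {X : Matrix α α ℂ} (hX : X.IsHermitian) (w : ℝ) :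
    (penW A X w).IsHermitian := by
  unfold penW
  apply IsHermitian.sub _ hX
  have h1 : (A * Aᴴ).IsHermitian := isHermitian_mul_conjTranspose_self A
  unfold IsHermitian at h1 ⊢
  rw [conjTranspose_smul, h1]
  simp

/-- Sorted eigenvalues of the pencil as functions of `w`. -/
noncomputable def hW (A : Matrix α β ℂ) {X : Matrix α α ℂ} (hX : X.IsHermitian) (j : α) (w : ℝ) : ℝ :=
  (penW_isHermitian A hX w).eigenvalues j

lemma hW_mono (A : Matrix α β ℂ) {X : Matrix α α ℂ} (hX : X.IsHermitian) (j : α) :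
    Monotone (hW A hX j) := by
  intro w w' hww
  unfold hW
  apply eigenvalues_mono
  have e : penW A X w' - penW A X w = ((w' - w : ℝ) : ℂ) • (A * Aᴴ) := by
    unfold penW
    push_cast
    rw [sub_smul]
    abel
  rw [e]
  have hP : (A * Aᴴ).PosSemidef := posSemidef_self_mul_conjTranspose A
  have : ((w' - w : ℝ) : ℂ) • (A * Aᴴ) = (w' - w) • (A * Aᴴ) := by
    ext i k; simp [Matrix.smul_apply]
  rw [this]
  exact hP.smul (sub_nonneg.mpr hww)

lemma hW_measurable (A : Matrix α β ℂ) {X : Matrix α α ℂ} (hX : X.IsHermitian) (j : α) :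
    Measurable (hW A hX j) := (hW_mono A hX j).measurable

/-- Sum of the pencil eigenvalues. -/
lemma sum_hW (A : Matrix α β ℂ) {X : Matrix α α ℂ} (hX : X.IsHermitian) (w : ℝ) :
    ∑ j, hW A hX j w = w * ((A * Aᴴ).trace).re - (X.trace).re := by
  unfold hW
  have := (penW_isHermitian A hX w).trace_eq_sum_eigenvalues
  have h2 : (∑ j, (penW_isHermitian A hX w).eigenvalues j) = ((penW A X w).trace).re := by
    rw [this]; simp
  rw [h2]
  unfold penW
  rw [trace_sub, trace_smul, Complex.sub_re]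
  simp

end pencil

end Vale.Agent.P358
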