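import Vale.Agent.Lib.P358.G.Det
import Vale.Agent.Lib.P358.G.CountCore

/-!
# P358, general parameters: eigenvalue counting
-/

open Matrix Real MeasureTheory Set
open scoped ComplexOrder

set_option linter.unusedSectionVars false

namespace Vale.Agent.P358.G

variable {n m r ω : Type}
variable [Fintype n] [DecidableEq n] [Fintype m] [DecidableEq m]
variable [Fintype r] [DecidableEq r] [Fintype ω] [DecidableEq ω]

/-- Counting lemma: a subspace on which the form of `M` exceeds `s` has dimension at most the
number of eigenvalues above `s`. Here the subspace is the range of `V`, the strict inequality forces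
injectivity. -/
theorem count_le_of_form (M : Matrix n n ℂ) (hM : M.IsHermitian) (s : ℝ) (V : Matrix n m ℂ)
    (h : ∀ c : m → ℂ, c ≠ 0 →
      s * (star (V *ᵥ c) ⬝ᵥ (V *ᵥ c)).re < (star (V *ᵥ c) ⬝ᵥ (M *ᵥ (V *ᵥ c))).re) :
    Fintype.card m ≤ (Finset.univ.filter fun i => s < hM.eigenvalues i).card := by
  classical
  set U : Matrix n n ℂ := (hM.eigenvectorUnitary : Matrix n n ℂ) with hUdef
  have hU : U ∈ unitaryGroup n ℂ := hM.eigenvectorUnitary.2
  let p : n → Prop := fun j => s < hM.eigenvalues j
  let Ψ : (m → ℂ) →ₗ[ℂ] ({j // p j} → ℂ) :=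
    (LinearMap.funLeft ℂ ℂ (Subtype.val : {j // p j} → n)).comp
      ((Matrix.mulVecLin Uᴴ).comp (Matrix.mulVecLin V))
  have hinj : Function.Injective Ψ := by
    rw [← LinearMap.ker_eq_bot, LinearMap.ker_eq_bot']
    intro c hc
    by_contra hc0
    have hlt := h c hc0
    set v := V *ᵥ c with hv
    have hzero : ∀ j, p j → (Uᴴ *ᵥ v) j = 0 := by
      intro j hj
      have := congrFun hc ⟨j, hj⟩
      simp only [Ψ, LinearMap.comp_apply, Matrix.mulVecLin_apply, LinearMap.funLeft_apply,
        Pi.zero_apply] at this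
      exact this
    have e1 : nsq v = nsq (Uᴴ *ᵥ v) := by rw [nsq_unitary U hU]
    have e2 : qf M v = ∑ j, hM.eigenvalues j * ‖(Uᴴ *ᵥ v) j‖ ^ 2 := by
      conv_lhs => rw [herm_spectral M hM]
      exact qf_unitary_diag _ _ _
    have : qf M v ≤ s * nsq v := by
      rw [e1, e2, nsq_eq, Finset.mul_sum]
      apply Finset.sum_le_sum
      intro j _
      by_cases hj : p j
      · rw [hzero j hj]; simp
      · exact mul_le_mul_of_nonneg_right (le_of_not_gt hj) (by positivity)
    have h3 : s * nsq v < qf M v := hlt
    linarith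
  have := LinearMap.finrank_le_finrank_of_injective hinj
  rw [Module.finrank_fintype_fun_eq_card, Module.finrank_fintype_fun_eq_card,
    Fintype.card_subtype] at this
  exact this

/-- Eigenvalues through `eigF`. -/
lemma eigF_eq (M : Matrix n n ℂ) (hM : M.IsHermitian) (k : n) : eigF M k = hM.eigenvalues k := by
  unfold eigF
  rw [dif_pos hM]

/-- The data for the layer cake comparison, from the pencil `u P - X`, `P = A Aᴴ`. -/
theorem side_data (A : Matrix r ω ℂ) (X : Matrix r r ℂ) (hX : X.PosSemidef) :
    ∃ g : Fin (Fintype.card r) → ℝ → ℝ,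
      (∀ j, Measurable (g j)) ∧
      (∀ u, ∑ j, g j u = u * ((A * Aᴴ).trace).re - (X.trace).re) ∧
      (∀ t l, 0 < t → 0 < l → (Finset.univ.filter fun j => t < g j l⁻¹).card ≤
        (Finset.univ.filter fun k => l < eigF (dress A X t) k).card) ∧
      (∀ t l, 0 < t → 0 < l → (Finset.univ.filter fun j => t < g j l⁻¹).card ≤
        (Finset.univ.filter fun i => l * t < eigF (A * Aᴴ) i).card) := by
  have hH := hX.isHermitian
  let e : Fin (Fintype.card r) ≃ r := Fintype.equivOfCardEq (Fintype.card_fin _)
  refine ⟨fun j u => hW A hH (e j) u, fun j => hW_measurable A hH (e j), ?_, ?_, ?_⟩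
  · intro u
    rw [Equiv.sum_comp e (fun k => hW A hH k u)]
    exact sum_hW A hH u
  all_goals
    have hcard : ∀ t l : ℝ, (Finset.univ.filter fun j => t < hW A hH (e j) l⁻¹).card
        = cnt (penW A X l⁻¹) (penW_isHermitian A hH l⁻¹) t := by
      intro t l
      unfold cnt hW
      apply Finset.card_bij (fun j _ => e j)
      · intro j hj
        rw [Finset.mem_filter] at hj ⊢
        exact ⟨Finset.mem_univ _, hj.2⟩
      · intro j _ j' _ hjj
        exact e.injective hjj
      · intro k hk
        refine ⟨e.symm k, ?_, by simp⟩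
        rw [Finset.mem_filter] at hk ⊢
        refine ⟨Finset.mem_univ _, ?_⟩
        simpa using hk.2
  · intro t l ht hl
    rw [hcard]
    have hC := Ct_posSemidef A hX ht
    have h1 := cnt_pen_le A hX ht hl (pen_isHermitian A hH l) hC.isHermitian
    have e1 : (Finset.univ.filter fun k => l < eigF (dress A X t) k)
        = (Finset.univ.filter fun k => l < hC.isHermitian.eigenvalues k) := by
      ext k
      simp only [Finset.mem_filter, Finset.mem_univ, true_and]
      have : eigF (dress A X t) k = hC.isHermitian.eigenvalues k := eigF_eq _ hC.isHermitian k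
      rw [this]
    rw [e1]
    exact h1
  · intro t l ht hl
    rw [hcard]
    have hP := (posSemidef_self_mul_conjTranspose A).isHermitian
    have e1 : (Finset.univ.filter fun i => l * t < eigF (A * Aᴴ) i)
        = (Finset.univ.filter fun i => l * t < hP.eigenvalues i) := by
      ext i
      simp only [Finset.mem_filter, Finset.mem_univ, true_and]
      rw [eigF_eq _ hP i]
    rw [e1]
    show cnt (penW A X l⁻¹) (penW_isHermitian A hH l⁻¹) t ≤ cnt (A * Aᴴ) hP (l * t)
    apply cnt_le_of_map _ _ _ _ t (l * t) LinearMap.id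
    intro v hv hlt
    refine ⟨hv, ?_⟩
    simp only [LinearMap.id_coe, id_eq]
    have e2 : qf (penW A X l⁻¹) v = l⁻¹ * qf (A * Aᴴ) v - qf X v := by
      unfold penW qf
      rw [sub_mulVec, smul_mulVec, dotProduct_sub, dotProduct_smul, Complex.sub_re]
      simp
    have hXq : 0 ≤ qf X v := by
      have := hX.re_dotProduct_nonneg v
      simpa [qf] using this
    rw [e2] at hlt
    have h3 : t * nsq v < l⁻¹ * qf (A * Aᴴ) v := by linarith
    have h4 := mul_lt_mul_of_pos_left h3 hl
    have h5 : l * (l⁻¹ * qf (A * Aᴴ) v) = qf (A * Aᴴ) v := by field_simp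
    calc l * t * nsq v = l * (t * nsq v) := by ring
      _ < l * (l⁻¹ * qf (A * Aᴴ) v) := h4
      _ = _ := h5

end Vale.Agent.P358.G
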