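import Vale.Agent.Lib.P358.G.Defs
import Vale.Agent.Lib.P358.Fiedler

/-!
# P358, general parameters: decoupling
-/

open Matrix Real MeasureTheory Set
open scoped ComplexOrder

namespace Vale.Agent.P358.G

variable {n : Type} [Fintype n] [DecidableEq n]

/-- The eigenvalue function on a Hermitian matrix. -/
lemma eigF_eq (M : Matrix n n ℂ) (h : M.IsHermitian) (k : n) : eigF M k = h.eigenvalues k := by
  unfold eigF
  rw [dif_pos h]

/-- Decoupling: potentials dominated by the logarithm give a lower bound on the log-determinant. -/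
theorem decouple (C D : Matrix n n ℂ) (hC : C.PosSemidef) (hD : D.PosSemidef) (φ ψ : ℝ → ℝ)
    (h : ∀ lam mu, 0 ≤ lam → 0 ≤ mu → φ lam + ψ mu ≤ Real.log (1 + lam + mu)) :
    ∑ k, φ (eigF C k) + ∑ k, ψ (eigF D k) ≤ logdet (1 + C + D) := by
  have := sep_le_logdet C D hC hD φ ψ h
  simpa only [eigF_eq C hC.isHermitian, eigF_eq D hD.isHermitian, logdet] using this

end Vale.Agent.P358.G
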