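import Vale.Agent.Lib.P358.ECI

/-!
# P358, general parameters: definitions for the tree inequality
-/

open Matrix Real MeasureTheory Set
open scoped ComplexOrder

namespace Vale.Agent.P358.G

variable {n m r r₁ r₂ ω : Type}
variable [Fintype n] [DecidableEq n] [Fintype m] [DecidableEq m]
variable [Fintype r] [DecidableEq r] [Fintype r₁] [DecidableEq r₁] [Fintype r₂] [DecidableEq r₂]
variable [Fintype ω] [DecidableEq ω]

/-- Eigenvalue function, junk value `0` on non-Hermitian input. -/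
noncomputable def eigF (M : Matrix n n ℂ) (k : n) : ℝ :=
  open Classical in
  if h : M.IsHermitian then h.eigenvalues k else 0

/-- Log-determinant, real part. -/
noncomputable def logdet (M : Matrix n n ℂ) : ℝ := Real.log (M.det).re

/-- The potential of a weight. -/
noncomputable def pot (w : ℝ → ℝ) (lam : ℝ) : ℝ := ∫ l in (0 : ℝ)..lam, w l

/-- The weight of the scalar curve. -/
noncomputable def W (a x y z l : ℝ) : ℝ :=
  if 0 < a / l - x then 1 / (1 + l + y / (a / l - x + z)) else 0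

/-- The dressed matrix. -/
noncomputable def dress (A : Matrix r ω ℂ) (X : Matrix r r ℂ) (t : ℝ) : Matrix ω ω ℂ :=
  Aᴴ * (((t : ℝ) : ℂ) • (1 : Matrix r r ℂ) + X)⁻¹ * A

/-- The output matrix of the tree. -/
noncomputable def sig (A : Matrix r₁ ω ℂ) (B : Matrix r₂ ω ℂ) (X : Matrix r₁ r₁ ℂ)
    (Z : Matrix r₂ r₂ ℂ) : Matrix (r₁ ⊕ r₂) (r₁ ⊕ r₂) ℂ :=
  fromBlocks (A * Aᴴ + X) (A * Bᴴ) (B * Aᴴ) (B * Bᴴ + Z)

/-- The entropy defect of the tree. -/
noncomputable def Jval (A : Matrix r₁ ω ℂ) (B : Matrix r₂ ω ℂ) (X : Matrix r₁ r₁ ℂ)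
    (Z : Matrix r₂ r₂ ℂ) : ℝ :=
  stil (sig A B X Z) - stil (A * Aᴴ) - stil (B * Bᴴ) - stil X - stil Z

/-- The integrand of the entropy defect. -/
noncomputable def jfun (A : Matrix r₁ ω ℂ) (B : Matrix r₂ ω ℂ) (X : Matrix r₁ r₁ ℂ)
    (Z : Matrix r₂ r₂ ℂ) (t : ℝ) : ℝ :=
  logdet (1 + dress A X t + dress B Z t) - LD (A * Aᴴ) t - LD (B * Bᴴ) t

/-- A real number as a `1 × 1` matrix. -/
noncomputable def scal (s : ℝ) : Matrix Unit Unit ℂ := fun _ _ => (s : ℂ)

end Vale.Agent.P358.G
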