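import Vale.Agent.Lib.P358.G.Defs

/-!
# P358, general parameters: the determinant identity and the integral for the entropy defect
-/

set_option linter.unusedSectionVars false

open Matrix Real MeasureTheory Set
open scoped ComplexOrder

namespace Vale.Agent.P358.G

variable {r r₁ r₂ ω : Type}
variable [Fintype r] [DecidableEq r] [Fintype r₁] [DecidableEq r₁] [Fintype r₂] [DecidableEq r₂]
variable [Fintype ω] [DecidableEq ω]

lemma shift_posDef (X : Matrix r r ℂ) (hX : X.PosSemidef) {t : ℝ} (ht : 0 < t) :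
    (((t : ℝ) : ℂ) • (1 : Matrix r r ℂ) + X).PosDef := by
  have htc : (0 : ℂ) < ((t : ℝ) : ℂ) := by exact_mod_cast ht
  exact (PosDef.one.smul htc).add_posSemidef hX

lemma dress_posSemidef (A : Matrix r ω ℂ) (X : Matrix r r ℂ) (hX : X.PosSemidef) {t : ℝ}
    (ht : 0 < t) : (dress A X t).PosSemidef := by
  unfold dress
  exact (shift_posDef X hX ht).inv.posSemidef.conjTranspose_mul_mul_same A

lemma fromBlocks_diag_posSemidef (X : Matrix r₁ r₁ ℂ) (Z : Matrix r₂ r₂ ℂ) (hX : X.PosSemidef)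
    (hZ : Z.PosSemidef) : (fromBlocks X 0 0 Z).PosSemidef := by
  have h1 := hX.conjTranspose_mul_mul_same (fromCols (1 : Matrix r₁ r₁ ℂ) (0 : Matrix r₁ r₂ ℂ))
  have h2 := hZ.conjTranspose_mul_mul_same (fromCols (0 : Matrix r₂ r₁ ℂ) (1 : Matrix r₂ r₂ ℂ))
  rw [conjTranspose_fromCols_eq_fromRows_conjTranspose, fromRows_mul, fromRows_mul_fromCols] at h1 h2
  simp only [conjTranspose_one, conjTranspose_zero, Matrix.one_mul, Matrix.zero_mul, Matrix.mul_one,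
    Matrix.mul_zero] at h1 h2
  have h3 := h1.add h2
  rw [fromBlocks_add] at h3
  simpa using h3

lemma sig_eq (A : Matrix r₁ ω ℂ) (B : Matrix r₂ ω ℂ) (X : Matrix r₁ r₁ ℂ) (Z : Matrix r₂ r₂ ℂ) :
    sig A B X Z = fromRows A B * (fromRows A B)ᴴ + fromBlocks X 0 0 Z := by
  unfold sig
  rw [conjTranspose_fromRows_eq_fromCols_conjTranspose, fromRows_mul_fromCols, fromBlocks_add]
  simp

lemma sig_posSemidef (A : Matrix r₁ ω ℂ) (B : Matrix r₂ ω ℂ) (X : Matrix r₁ r₁ ℂ)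
    (Z : Matrix r₂ r₂ ℂ) (hX : X.PosSemidef) (hZ : Z.PosSemidef) :
    (sig A B X Z).PosSemidef := by
  rw [sig_eq]
  exact (posSemidef_self_mul_conjTranspose _).add (fromBlocks_diag_posSemidef X Z hX hZ)

/-- The factorization of the determinant. -/
lemma det_sig (A : Matrix r₁ ω ℂ) (B : Matrix r₂ ω ℂ) (X : Matrix r₁ r₁ ℂ)
    (Z : Matrix r₂ r₂ ℂ) (hX : X.PosSemidef) (hZ : Z.PosSemidef) {t : ℝ} (ht : 0 < t) :
    det (1 + ((t⁻¹ : ℝ) : ℂ) • sig A B X Z) =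
      det (1 + ((t⁻¹ : ℝ) : ℂ) • X) * det (1 + ((t⁻¹ : ℝ) : ℂ) • Z) *
        det (1 + dress A X t + dress B Z t) := by
  have htc : ((t : ℝ) : ℂ) ≠ 0 := by exact_mod_cast ht.ne'
  set P := (((t : ℝ) : ℂ) • (1 : Matrix r₁ r₁ ℂ) + X)⁻¹ with hP
  set Q := (((t : ℝ) : ℂ) • (1 : Matrix r₂ r₂ ℂ) + Z)⁻¹ with hQ
  have hP1 : (1 + ((t⁻¹ : ℝ) : ℂ) • X) * P = ((t⁻¹ : ℝ) : ℂ) • (1 : Matrix r₁ r₁ ℂ) := by
    have hu : IsUnit (((t : ℝ) : ℂ) • (1 : Matrix r₁ r₁ ℂ) + X).det :=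
      isUnit_iff_ne_zero.2 (shift_posDef X hX ht).det_pos.ne'
    have h1 : (1 + ((t⁻¹ : ℝ) : ℂ) • X) =
        ((t⁻¹ : ℝ) : ℂ) • (((t : ℝ) : ℂ) • (1 : Matrix r₁ r₁ ℂ) + X) := by
      rw [smul_add, smul_smul, Complex.ofReal_inv, inv_mul_cancel₀ htc, one_smul]
    rw [h1, smul_mul_assoc, hP, mul_nonsing_inv _ hu]
  have hQ1 : (1 + ((t⁻¹ : ℝ) : ℂ) • Z) * Q = ((t⁻¹ : ℝ) : ℂ) • (1 : Matrix r₂ r₂ ℂ) := by
    have hu : IsUnit (((t : ℝ) : ℂ) • (1 : Matrix r₂ r₂ ℂ) + Z).det :=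
      isUnit_iff_ne_zero.2 (shift_posDef Z hZ ht).det_pos.ne'
    have h1 : (1 + ((t⁻¹ : ℝ) : ℂ) • Z) =
        ((t⁻¹ : ℝ) : ℂ) • (((t : ℝ) : ℂ) • (1 : Matrix r₂ r₂ ℂ) + Z) := by
      rw [smul_add, smul_smul, Complex.ofReal_inv, inv_mul_cancel₀ htc, one_smul]
    rw [h1, smul_mul_assoc, hQ, mul_nonsing_inv _ hu]
  set W := fromRows A B with hW
  set L := fromBlocks (1 + ((t⁻¹ : ℝ) : ℂ) • X) 0 0 (1 + ((t⁻¹ : ℝ) : ℂ) • Z) with hL
  set L' := fromBlocks P 0 0 Q with hL'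
  have hLL : L * L' = ((t⁻¹ : ℝ) : ℂ) • (1 : Matrix (r₁ ⊕ r₂) (r₁ ⊕ r₂) ℂ) := by
    rw [hL, hL', fromBlocks_multiply, hP1, hQ1]
    simp only [Matrix.mul_zero, Matrix.zero_mul, add_zero, zero_add]
    rw [← fromBlocks_one, fromBlocks_smul]
    simp
  have hD : (1 : Matrix (r₁ ⊕ r₂) (r₁ ⊕ r₂) ℂ) + ((t⁻¹ : ℝ) : ℂ) • fromBlocks X 0 0 Z = L := by
    rw [hL, fromBlocks_smul, ← fromBlocks_one, fromBlocks_add]
    simp
  have hM : 1 + ((t⁻¹ : ℝ) : ℂ) • sig A B X Z = L * (1 + L' * W * Wᴴ) := by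
    rw [Matrix.mul_add, Matrix.mul_one, ← Matrix.mul_assoc, ← Matrix.mul_assoc, hLL, sig_eq,
      smul_add, Matrix.smul_mul, Matrix.smul_mul, Matrix.one_mul, ← hD]
    abel
  have hW2 : Wᴴ * (L' * W) = dress A X t + dress B Z t := by
    rw [hW, conjTranspose_fromRows_eq_fromCols_conjTranspose, hL', fromBlocks_mul_fromRows,
      fromCols_mul_fromRows]
    simp only [Matrix.zero_mul, add_zero, zero_add]
    unfold dress
    rw [← hP, ← hQ, Matrix.mul_assoc, Matrix.mul_assoc]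
  rw [hM, det_mul, hL, det_fromBlocks_zero₂₁, det_one_add_mul_comm, hW2, add_assoc]

/-- The real part of the determinant of a positive definite matrix is positive, and the determinant
is this real number. -/
lemma det_posDef_eq {n : Type} [Fintype n] [DecidableEq n] {M : Matrix n n ℂ} (hM : M.PosDef) :
    0 < (M.det).re ∧ M.det = (((M.det).re : ℝ) : ℂ) := by
  have h := hM.det_pos
  have h1 := Complex.pos_iff.1 h
  refine ⟨h1.1, ?_⟩
  apply Complex.ext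
  · simp
  · simp [h1.2.symm]

lemma one_smul_posDef {n : Type} [Fintype n] [DecidableEq n] (X : Matrix n n ℂ) (hX : X.PosSemidef)
    {t : ℝ} (ht : 0 < t) : (1 + ((t⁻¹ : ℝ) : ℂ) • X).PosDef := by
  have htc : (0 : ℂ) ≤ ((t⁻¹ : ℝ) : ℂ) := by
    have : 0 ≤ t⁻¹ := by positivity
    exact_mod_cast this
  exact PosDef.one.add_posSemidef (hX.smul htc)

/-- Matrix determinant lemma for the tree. -/
theorem LD_sig (A : Matrix r₁ ω ℂ) (B : Matrix r₂ ω ℂ) (X : Matrix r₁ r₁ ℂ)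
    (Z : Matrix r₂ r₂ ℂ) (hX : X.PosSemidef) (hZ : Z.PosSemidef) {t : ℝ} (ht : 0 < t) :
    LD (sig A B X Z) t = LD X t + LD Z t + logdet (1 + dress A X t + dress B Z t) := by
  unfold LD logdet
  rw [det_sig A B X Z hX hZ ht]
  obtain ⟨h1, e1⟩ := det_posDef_eq (one_smul_posDef X hX ht)
  obtain ⟨h2, e2⟩ := det_posDef_eq (one_smul_posDef Z hZ ht)
  have h3 : (1 + dress A X t + dress B Z t).PosDef := by
    have := (PosDef.one (n := ω) (R := ℂ)).add_posSemidef (dress_posSemidef A X hX ht)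
    exact this.add_posSemidef (dress_posSemidef B Z hZ ht)
  obtain ⟨h4, e4⟩ := det_posDef_eq h3
  rw [e1, e2, e4, ← Complex.ofReal_mul, ← Complex.ofReal_mul, Complex.ofReal_re, Complex.ofReal_re,
    Complex.ofReal_re, Complex.ofReal_re, Real.log_mul (by positivity) h4.ne',
    Real.log_mul h1.ne' h2.ne']

/-- The trace of the output matrix. -/
lemma trace_sig (A : Matrix r₁ ω ℂ) (B : Matrix r₂ ω ℂ) (X : Matrix r₁ r₁ ℂ) (Z : Matrix r₂ r₂ ℂ) :
    ((sig A B X Z).trace).re = ((A * Aᴴ).trace).re + ((B * Bᴴ).trace).re + (X.trace).re +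
      (Z.trace).re := by
  have h : (sig A B X Z).trace = (A * Aᴴ + X).trace + (B * Bᴴ + Z).trace := by
    simp [sig, Matrix.trace, Fintype.sum_sum_type]
  rw [h, trace_add, trace_add]
  simp only [Complex.add_re]
  ring

/-- The entropy defect is the integral of `jfun`. -/
theorem jfun_integral (A : Matrix r₁ ω ℂ) (B : Matrix r₂ ω ℂ) (X : Matrix r₁ r₁ ℂ)
    (Z : Matrix r₂ r₂ ℂ) (hX : X.PosSemidef) (hZ : Z.PosSemidef) :
    IntegrableOn (jfun A B X Z) (Ioi 0) ∧ ∫ t in Ioi 0, jfun A B X Z t = Jval A B X Z := by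
  obtain ⟨i1, v1⟩ := stil_integral (sig A B X Z) (sig_posSemidef A B X Z hX hZ)
  obtain ⟨i2, v2⟩ := stil_integral (A * Aᴴ) (posSemidef_self_mul_conjTranspose A)
  obtain ⟨i3, v3⟩ := stil_integral (B * Bᴴ) (posSemidef_self_mul_conjTranspose B)
  obtain ⟨i4, v4⟩ := stil_integral X hX
  obtain ⟨i5, v5⟩ := stil_integral Z hZ
  have heq : ∀ t ∈ Ioi (0 : ℝ), (LD (sig A B X Z) t - ((sig A B X Z).trace).re / (1 + t)) -
      (LD (A * Aᴴ) t - ((A * Aᴴ).trace).re / (1 + t)) -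
      (LD (B * Bᴴ) t - ((B * Bᴴ).trace).re / (1 + t)) -
      (LD X t - (X.trace).re / (1 + t)) - (LD Z t - (Z.trace).re / (1 + t)) = jfun A B X Z t := by
    intro t ht
    have ht0 : 0 < t := ht
    have h1 : (0 : ℝ) < 1 + t := by linarith
    unfold jfun
    rw [LD_sig A B X Z hX hZ ht0, trace_sig]
    field_simp
    ring
  have h1 : IntegrableOn (fun t => (LD (sig A B X Z) t - ((sig A B X Z).trace).re / (1 + t)) -
      (LD (A * Aᴴ) t - ((A * Aᴴ).trace).re / (1 + t))) (Ioi 0) := i1.sub i2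
  have h2 : IntegrableOn (fun t => (LD (sig A B X Z) t - ((sig A B X Z).trace).re / (1 + t)) -
      (LD (A * Aᴴ) t - ((A * Aᴴ).trace).re / (1 + t)) -
      (LD (B * Bᴴ) t - ((B * Bᴴ).trace).re / (1 + t))) (Ioi 0) := h1.sub i3
  have h3 : IntegrableOn (fun t => (LD (sig A B X Z) t - ((sig A B X Z).trace).re / (1 + t)) -
      (LD (A * Aᴴ) t - ((A * Aᴴ).trace).re / (1 + t)) -
      (LD (B * Bᴴ) t - ((B * Bᴴ).trace).re / (1 + t)) -
      (LD X t - (X.trace).re / (1 + t))) (Ioi 0) := h2.sub i4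
  have hint : IntegrableOn (fun t => (LD (sig A B X Z) t - ((sig A B X Z).trace).re / (1 + t)) -
      (LD (A * Aᴴ) t - ((A * Aᴴ).trace).re / (1 + t)) -
      (LD (B * Bᴴ) t - ((B * Bᴴ).trace).re / (1 + t)) -
      (LD X t - (X.trace).re / (1 + t)) - (LD Z t - (Z.trace).re / (1 + t))) (Ioi 0) := h3.sub i5
  refine ⟨hint.congr_fun heq measurableSet_Ioi, ?_⟩
  rw [← setIntegral_congr_fun measurableSet_Ioi heq]
  rw [integral_sub h3 i5, integral_sub h2 i4, integral_sub h1 i3, integral_sub i1 i2, v1, v2, v3,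
    v4, v5, trace_sig]
  unfold Jval
  ring

lemma scal_mul (s s' : ℝ) : scal s * scal s' = scal (s * s') := by
  ext i j
  simp [scal, Matrix.mul_apply]

lemma scal_conjTranspose (s : ℝ) : (scal s)ᴴ = scal s := by
  ext i j
  simp [scal, conjTranspose_apply]

lemma one_eq_scal : (1 : Matrix Unit Unit ℂ) = scal 1 := by
  ext i j
  simp [scal]

lemma scal_add (s s' : ℝ) : scal s + scal s' = scal (s + s') := by
  ext i j
  simp [scal]

lemma smul_scal (c s : ℝ) : ((c : ℝ) : ℂ) • scal s = scal (c * s) := by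
  ext i j
  simp [scal]

lemma scal_inv {s : ℝ} (hs : s ≠ 0) : (scal s)⁻¹ = scal s⁻¹ := by
  apply Matrix.inv_eq_right_inv
  rw [scal_mul, mul_inv_cancel₀ hs, ← one_eq_scal]

lemma logdet_scal (s : ℝ) : logdet (scal s) = Real.log s := by
  unfold logdet
  simp [scal, det_unique]

lemma dress_scal {a x t : ℝ} (ha : 0 ≤ a) (hx : 0 ≤ x) (ht : 0 < t) :
    dress (scal √a) (scal x) t = scal (a / (t + x)) := by
  unfold dress
  have h1 : t + x ≠ 0 := by positivity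
  rw [scal_conjTranspose, one_eq_scal, smul_scal, scal_add, mul_one, scal_inv h1, scal_mul, scal_mul]
  congr 1
  have h2 : √a * √a = a := Real.mul_self_sqrt ha
  field_simp
  nlinarith

lemma LD_scal {a t : ℝ} (ha : 0 ≤ a) : LD (scal √a * (scal √a)ᴴ) t = Real.log (1 + a / t) := by
  unfold LD
  rw [scal_conjTranspose, scal_mul, Real.mul_self_sqrt ha, smul_scal, one_eq_scal, scal_add]
  simp only [scal, det_unique, Complex.ofReal_re]
  congr 2
  rw [div_eq_inv_mul]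

/-- `jfun` for scalars. -/
theorem jfun_scal {a x y z t : ℝ} (ha : 0 ≤ a) (hx : 0 ≤ x) (hy : 0 ≤ y) (hz : 0 ≤ z)
    (ht : 0 < t) :
    jfun (scal √a) (scal √y) (scal x) (scal z) t =
      Real.log (1 + a / (t + x) + y / (t + z)) - Real.log (1 + a / t) - Real.log (1 + y / t) := by
  unfold jfun
  rw [dress_scal ha hx ht, dress_scal hy hz ht, LD_scal ha, LD_scal hy, one_eq_scal, scal_add,
    scal_add, logdet_scal]

end Vale.Agent.P358.G
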