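import Mathlib

/-!
# P358: the dual pair of potentials for the tree inequality

For scalars `a, x, y, z ≥ 0` put `lam s = a / (s + x)`, `mu s = y / (s + z)`.  The weights `potW`
are arranged so that `phiW a x y z` and `phiW y z a x` add up to `log (1 + lam + mu)` along the
curve `s ↦ (lam s, mu s)`, and stay below `log (1 + l + m)` everywhere.
-/

open MeasureTheory Set Filter Topology

namespace Vale.Agent.P358

/-- The weight. -/
noncomputable def potW (a x y z l : ℝ) : ℝ :=
  if 0 < a / l - x then 1 / (1 + l + y / (a / l - x + z)) else 0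

/-- The potential. -/
noncomputable def phiW (a x y z L : ℝ) : ℝ := ∫ l in (0 : ℝ)..L, potW a x y z l

lemma potW_measurable (a x y z : ℝ) : Measurable (potW a x y z) := by
  unfold potW
  refine Measurable.ite ?_ ?_ measurable_const
  · exact measurableSet_lt measurable_const (by fun_prop)
  · fun_prop

lemma pos_of_potW_cond {a x l : ℝ} (ha : 0 ≤ a) (hx : 0 ≤ x) (h : 0 < a / l - x) : 0 < l := by
  by_contra hl
  have hl' : l ≤ 0 := not_lt.mp hl
  have : a / l ≤ 0 := div_nonpos_of_nonneg_of_nonpos ha hl'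
  linarith

lemma potW_nonneg {a x y z : ℝ} (ha : 0 ≤ a) (hx : 0 ≤ x) (hy : 0 ≤ y) (hz : 0 ≤ z) (l : ℝ) :
    0 ≤ potW a x y z l := by
  unfold potW
  split_ifs with h
  · have hl := pos_of_potW_cond ha hx h
    have : 0 ≤ y / (a / l - x + z) := div_nonneg hy (by linarith)
    positivity
  · exact le_rfl

lemma potW_le {a x y z : ℝ} (ha : 0 ≤ a) (hx : 0 ≤ x) (hy : 0 ≤ y) (hz : 0 ≤ z) {l : ℝ}
    (hl0 : 0 ≤ l) : potW a x y z l ≤ 1 / (1 + l) := by
  unfold potW
  split_ifs with h
  · have hl := pos_of_potW_cond ha hx h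
    have : 0 ≤ y / (a / l - x + z) := div_nonneg hy (by linarith)
    exact one_div_le_one_div_of_le (by linarith) (by linarith)
  · positivity

lemma potW_le_one {a x y z : ℝ} (ha : 0 ≤ a) (hx : 0 ≤ x) (hy : 0 ≤ y) (hz : 0 ≤ z) (l : ℝ) :
    potW a x y z l ≤ 1 := by
  by_cases hl : 0 ≤ l
  · refine (potW_le ha hx hy hz hl).trans ?_
    rw [div_le_one (by linarith)]
    linarith
  · have : potW a x y z l = 0 := by
      unfold potW
      rw [if_neg]
      intro h
      exact hl (pos_of_potW_cond ha hx h).le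
    rw [this]
    exact zero_le_one

lemma potW_intervalIntegrable {a x y z : ℝ} (ha : 0 ≤ a) (hx : 0 ≤ x) (hy : 0 ≤ y) (hz : 0 ≤ z)
    (u v : ℝ) : IntervalIntegrable (potW a x y z) volume u v := by
  have hb : ∀ w, ‖potW a x y z w‖ ≤ 1 := by
    intro w
    rw [Real.norm_eq_abs, abs_of_nonneg (potW_nonneg ha hx hy hz w)]
    exact potW_le_one ha hx hy hz w
  rw [intervalIntegrable_iff]
  refine Measure.integrableOn_of_bounded (M := 1) ?_ (potW_measurable a x y z).aestronglyMeasurable
    (Eventually.of_forall hb)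
  simp

lemma phiW_continuous {a x y z : ℝ} (ha : 0 ≤ a) (hx : 0 ≤ x) (hy : 0 ≤ y) (hz : 0 ≤ z) :
    Continuous (phiW a x y z) :=
  intervalIntegral.continuous_primitive (potW_intervalIntegrable ha hx hy hz) 0

lemma phiW_zero (a x y z : ℝ) : phiW a x y z 0 = 0 := by
  simp [phiW]

/-- With `a = 0` the weight vanishes. -/
lemma potW_zero_left {x y z : ℝ} (hx : 0 ≤ x) (l : ℝ) : potW 0 x y z l = 0 := by
  unfold potW
  rw [if_neg]
  simp only [zero_div, zero_sub, not_lt]
  linarith

lemma phiW_zero_left {x y z : ℝ} (hx : 0 ≤ x) (L : ℝ) : phiW 0 x y z L = 0 := by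
  unfold phiW
  simp only [potW_zero_left hx]
  simp

/-- Value of the weight on the curve. -/
lemma potW_curve {a x y z s : ℝ} (ha : 0 < a) (hx : 0 ≤ x) (hs : 0 < s) :
    potW a x y z (a / (s + x)) = 1 / (1 + a / (s + x) + y / (s + z)) := by
  have h : a / (a / (s + x)) - x = s := by
    have : s + x ≠ 0 := by positivity
    field_simp
    ring
  unfold potW
  rw [h, if_pos hs]

lemma potW_continuousAt_curve {a x y z s : ℝ} (ha : 0 < a) (hx : 0 ≤ x) (hy : 0 ≤ y) (hz : 0 ≤ z)
    (hs : 0 < s) : ContinuousAt (potW a x y z) (a / (s + x)) := by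
  set l0 := a / (s + x) with hl0
  have hl0pos : 0 < l0 := by positivity
  have h : a / l0 - x = s := by
    have : s + x ≠ 0 := by positivity
    rw [hl0]
    field_simp
    ring
  have hc : ContinuousAt (fun l : ℝ => a / l - x) l0 := by
    have : l0 ≠ 0 := hl0pos.ne'
    fun_prop (disch := assumption)
  have hev : ∀ᶠ l in 𝓝 l0, 0 < a / l - x := by
    apply hc.eventually_const_lt
    show 0 < a / l0 - x
    rw [h]
    exact hs
  have hg : ContinuousAt (fun l : ℝ => 1 / (1 + l + y / (a / l - x + z))) l0 := by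
    have h1 : a / l0 - x + z ≠ 0 := by rw [h]; positivity
    have h2 : 1 + l0 + y / (a / l0 - x + z) ≠ 0 := by
      rw [h]
      positivity
    have h3 : ContinuousAt (fun l : ℝ => a / l - x + z) l0 := hc.add continuousAt_const
    have h4 : ContinuousAt (fun l : ℝ => y / (a / l - x + z)) l0 :=
      continuousAt_const.div h3 h1
    have h5 : ContinuousAt (fun l : ℝ => 1 + l + y / (a / l - x + z)) l0 :=
      (continuousAt_const.add continuousAt_id).add h4
    exact continuousAt_const.div h5 h2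
  refine hg.congr ?_
  filter_upwards [hev] with l hl
  unfold potW
  rw [if_pos hl]

lemma lam_hasDerivAt {a x s : ℝ} (hne : s + x ≠ 0) :
    HasDerivAt (fun s : ℝ => a / (s + x)) (-a / (s + x) ^ 2) s := by
  have h3 : HasDerivAt (fun s : ℝ => s + x) 1 s := (hasDerivAt_id s).add_const x
  have h4 := (hasDerivAt_const s a).div h3 hne
  have e : -a / (s + x) ^ 2 = (0 * (s + x) - a * 1) / (s + x) ^ 2 := by
    congr 1
    ring
  rw [e]
  exact h4

/-- Derivative of `phiW` along the curve. -/
lemma phiW_curve_hasDerivAt {a x y z s : ℝ} (ha : 0 ≤ a) (hx : 0 ≤ x) (hy : 0 ≤ y) (hz : 0 ≤ z)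
    (hs : 0 < s) :
    HasDerivAt (fun s => phiW a x y z (a / (s + x)))
      (1 / (1 + a / (s + x) + y / (s + z)) * (-a / (s + x) ^ 2)) s := by
  rcases ha.eq_or_lt with rfl | ha
  · have e : (fun s => phiW 0 x y z (0 / (s + x))) = fun _ => 0 := by
      funext u
      rw [phiW_zero_left hx]
    rw [e]
    simpa using hasDerivAt_const s (0 : ℝ)
  have h1 : HasDerivAt (phiW a x y z) (potW a x y z (a / (s + x))) (a / (s + x)) :=
    intervalIntegral.integral_hasDerivAt_right
      (potW_intervalIntegrable ha.le hx hy hz _ _)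
      ((potW_measurable a x y z).stronglyMeasurable.stronglyMeasurableAtFilter)
      (potW_continuousAt_curve ha hx hy hz hs)
  rw [potW_curve ha hx hs] at h1
  have hne : s + x ≠ 0 := by positivity
  exact h1.comp s (lam_hasDerivAt hne)

/-- The curve functional. -/
noncomputable def curveH (a x y z s : ℝ) : ℝ :=
  phiW a x y z (a / (s + x)) + phiW y z a x (y / (s + z)) - Real.log (1 + a / (s + x) + y / (s + z))

lemma curveH_hasDerivAt {a x y z s : ℝ} (ha : 0 ≤ a) (hx : 0 ≤ x) (hy : 0 ≤ y) (hz : 0 ≤ z)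
    (hs : 0 < s) : HasDerivAt (curveH a x y z) 0 s := by
  have h1 := phiW_curve_hasDerivAt (z := z) (y := y) ha hx hy hz hs
  have h2 := phiW_curve_hasDerivAt (z := x) (y := a) hy hz ha hx hs
  have hx' : s + x ≠ 0 := by positivity
  have hz' : s + z ≠ 0 := by positivity
  have hl1 : HasDerivAt (fun s : ℝ => a / (s + x)) (-a / (s + x) ^ 2) s := lam_hasDerivAt hx'
  have hl2 : HasDerivAt (fun s : ℝ => y / (s + z)) (-y / (s + z) ^ 2) s := lam_hasDerivAt hz'
  have he : 1 + a / (s + x) + y / (s + z) ≠ 0 := by positivity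
  have hl3 : HasDerivAt (fun s : ℝ => Real.log (1 + a / (s + x) + y / (s + z)))
      ((-a / (s + x) ^ 2 + -y / (s + z) ^ 2) / (1 + a / (s + x) + y / (s + z))) s := by
    have h5 : HasDerivAt (fun s : ℝ => 1 + a / (s + x) + y / (s + z))
        (-a / (s + x) ^ 2 + -y / (s + z) ^ 2) s := (hl1.const_add 1).add hl2
    exact h5.log he
  have h6 := (h1.add h2).sub hl3
  have e : 1 + y / (s + z) + a / (s + x) = 1 + a / (s + x) + y / (s + z) := by ring
  rw [e] at h6
  have e2 : 1 / (1 + a / (s + x) + y / (s + z)) * (-a / (s + x) ^ 2)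
      + 1 / (1 + a / (s + x) + y / (s + z)) * (-y / (s + z) ^ 2)
      - (-a / (s + x) ^ 2 + -y / (s + z) ^ 2) / (1 + a / (s + x) + y / (s + z)) = 0 := by
    ring
  rw [e2] at h6
  exact h6

lemma curveH_continuousOn {a x y z : ℝ} (ha : 0 ≤ a) (hx : 0 < x) (hy : 0 ≤ y) (hz : 0 < z) :
    ContinuousOn (curveH a x y z) (Ici 0) := by
  intro s hs
  have hs0 : (0 : ℝ) ≤ s := hs
  have hx' : s + x ≠ 0 := by positivity
  have hz' : s + z ≠ 0 := by positivity
  have h1 : ContinuousAt (fun s : ℝ => a / (s + x)) s := by fun_prop (disch := assumption)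
  have h2 : ContinuousAt (fun s : ℝ => y / (s + z)) s := by fun_prop (disch := assumption)
  have h3 : ContinuousAt (fun s : ℝ => phiW a x y z (a / (s + x))) s :=
    ContinuousAt.comp (f := fun s : ℝ => a / (s + x)) (g := phiW a x y z)
      (phiW_continuous ha hx.le hy hz.le).continuousAt h1
  have h4 : ContinuousAt (fun s : ℝ => phiW y z a x (y / (s + z))) s :=
    ContinuousAt.comp (f := fun s : ℝ => y / (s + z)) (g := phiW y z a x)
      (phiW_continuous hy hz.le ha hx.le).continuousAt h2
  have hne : 1 + a / (s + x) + y / (s + z) ≠ 0 := by positivity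
  have h5 : ContinuousAt (fun s : ℝ => Real.log (1 + a / (s + x) + y / (s + z))) s :=
    ((continuousAt_const.add h1).add h2).log hne
  exact ((h3.add h4).sub h5).continuousWithinAt

lemma curveH_tendsto {a x y z : ℝ} (ha : 0 ≤ a) (hx : 0 ≤ x) (hy : 0 ≤ y) (hz : 0 ≤ z) :
    Tendsto (curveH a x y z) atTop (𝓝 0) := by
  have h1 : Tendsto (fun s : ℝ => a / (s + x)) atTop (𝓝 0) :=
    Tendsto.const_div_atTop (tendsto_atTop_add_const_right _ _ tendsto_id) _
  have h2 : Tendsto (fun s : ℝ => y / (s + z)) atTop (𝓝 0) :=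
    Tendsto.const_div_atTop (tendsto_atTop_add_const_right _ _ tendsto_id) _
  have h3 : Tendsto (fun s : ℝ => phiW a x y z (a / (s + x))) atTop (𝓝 0) := by
    have := ((phiW_continuous ha hx hy hz).tendsto 0).comp h1
    rwa [phiW_zero] at this
  have h4 : Tendsto (fun s : ℝ => phiW y z a x (y / (s + z))) atTop (𝓝 0) := by
    have := ((phiW_continuous hy hz ha hx).tendsto 0).comp h2
    rwa [phiW_zero] at this
  have h5 : Tendsto (fun s : ℝ => Real.log (1 + a / (s + x) + y / (s + z))) atTop (𝓝 0) := by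
    have h6 : Tendsto (fun s : ℝ => 1 + a / (s + x) + y / (s + z)) atTop (𝓝 (1 + 0 + 0)) :=
      (tendsto_const_nhds.add h1).add h2
    have h7 := (Real.continuousAt_log (x := 1 + 0 + 0) (by norm_num)).tendsto.comp h6
    simpa [Function.comp_def] using h7
  have h8 := (h3.add h4).sub h5
  simp only [add_zero, sub_zero] at h8
  exact h8

/-- Common core of the two versions of (W1). -/
lemma curveH_eq_zero {a x y z : ℝ} (ha : 0 ≤ a) (hx : 0 ≤ x) (hy : 0 ≤ y) (hz : 0 ≤ z)
    {S : Set ℝ} (hS : Convex ℝ S) (hc : ContinuousOn (curveH a x y z) S)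
    (hint : ∀ u ∈ interior S, 0 < u) (hup : ∀ s ∈ S, ∀ u, s ≤ u → u ∈ S)
    {s : ℝ} (hs : s ∈ S) : curveH a x y z s = 0 := by
  have hderiv : ∀ u ∈ interior S, HasDerivAt (curveH a x y z) 0 u :=
    fun u hu => curveH_hasDerivAt ha hx hy hz (hint u hu)
  have hmono : MonotoneOn (curveH a x y z) S :=
    monotoneOn_of_deriv_nonneg hS hc
      (fun u hu => (hderiv u hu).differentiableAt.differentiableWithinAt)
      (fun u hu => by rw [(hderiv u hu).deriv])
  have hanti : AntitoneOn (curveH a x y z) S :=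
    antitoneOn_of_deriv_nonpos hS hc
      (fun u hu => (hderiv u hu).differentiableAt.differentiableWithinAt)
      (fun u hu => by rw [(hderiv u hu).deriv])
  have hev : ∀ᶠ u in atTop, curveH a x y z u = curveH a x y z s := by
    filter_upwards [eventually_ge_atTop s] with u hu
    exact le_antisymm (hanti hs (hup s hs u hu) hu) (hmono hs (hup s hs u hu) hu)
  have hlim : Tendsto (curveH a x y z) atTop (𝓝 (curveH a x y z s)) :=
    Tendsto.congr' (EventuallyEq.symm hev) tendsto_const_nhds
  exact tendsto_nhds_unique hlim (curveH_tendsto ha hx hy hz)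

/-- (W1) The potentials add up to the logarithm along the curve. -/
theorem phiW_curve {a x y z s : ℝ} (ha : 0 ≤ a) (hx : 0 ≤ x) (hy : 0 ≤ y) (hz : 0 ≤ z)
    (hs : 0 < s) :
    phiW a x y z (a / (s + x)) + phiW y z a x (y / (s + z))
      = Real.log (1 + a / (s + x) + y / (s + z)) := by
  have h0 := curveH_eq_zero ha hx hy hz (S := Ioi 0) (convex_Ioi 0)
    (fun u hu => (curveH_hasDerivAt ha hx hy hz hu).continuousAt.continuousWithinAt)
    (fun u hu => by rw [interior_Ioi] at hu; exact hu)
    (fun s hs u hu => lt_of_lt_of_le hs hu) hs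
  unfold curveH at h0
  linarith

/-- (W1) at the end point of the curve. -/
theorem phiW_curve_of_pos {a x y z s : ℝ} (ha : 0 ≤ a) (hx : 0 < x) (hy : 0 ≤ y) (hz : 0 < z)
    (hs : 0 ≤ s) :
    phiW a x y z (a / (s + x)) + phiW y z a x (y / (s + z))
      = Real.log (1 + a / (s + x) + y / (s + z)) := by
  have h0 := curveH_eq_zero ha hx.le hy hz.le (S := Ici 0) (convex_Ici 0)
    (curveH_continuousOn ha hx hy hz)
    (fun u hu => by rw [interior_Ici] at hu; exact hu)
    (fun s hs u hu => le_trans hs hu) hs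
  unfold curveH at h0
  linarith

/-- The potential is nonnegative on the nonnegative axis. -/
lemma phiW_nonneg {a x y z L : ℝ} (ha : 0 ≤ a) (hx : 0 ≤ x) (hy : 0 ≤ y) (hz : 0 ≤ z)
    (hL : 0 ≤ L) : 0 ≤ phiW a x y z L :=
  intervalIntegral.integral_nonneg hL (fun u _ => potW_nonneg ha hx hy hz u)

/-- The potential is below the logarithm. -/
lemma phiW_le_log {a x y z L : ℝ} (ha : 0 ≤ a) (hx : 0 ≤ x) (hy : 0 ≤ y) (hz : 0 ≤ z)
    (hL : 0 ≤ L) : phiW a x y z L ≤ Real.log (1 + L) := by
  have hint : IntervalIntegrable (fun l : ℝ => 1 / (1 + l)) volume 0 L := by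
    apply ContinuousOn.intervalIntegrable
    intro u hu
    rw [uIcc_of_le hL] at hu
    have : 1 + u ≠ 0 := by have := hu.1; positivity
    exact ContinuousAt.continuousWithinAt (by fun_prop (disch := assumption))
  have h1 : phiW a x y z L ≤ ∫ l in (0 : ℝ)..L, 1 / (1 + l) :=
    intervalIntegral.integral_mono_on hL (potW_intervalIntegrable ha hx hy hz _ _) hint
      (fun u hu => potW_le ha hx hy hz hu.1)
  have h2 : ∫ l in (0 : ℝ)..L, 1 / (1 + l) = Real.log (1 + L) := by
    have hd : ∀ u ∈ uIcc 0 L, HasDerivAt (fun l : ℝ => Real.log (1 + l)) (1 / (1 + u)) u := by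
      intro u hu
      rw [uIcc_of_le hL] at hu
      have hne : 1 + u ≠ 0 := by have := hu.1; positivity
      have := ((hasDerivAt_id u).const_add 1).log hne
      simpa using this
    rw [intervalIntegral.integral_eq_sub_of_hasDerivAt hd hint]
    simp
  linarith

/-- Beyond `a / x` the potential is constant. -/
lemma phiW_flat {a x y z L : ℝ} (ha : 0 < a) (hx : 0 < x) (hy : 0 ≤ y) (hz : 0 ≤ z)
    (hL : a / x ≤ L) : phiW a x y z L = phiW a x y z (a / x) := by
  have hpos : 0 < a / x := by positivity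
  have h0 : ∫ l in a / x..L, potW a x y z l = 0 := by
    have : EqOn (potW a x y z) (fun _ => 0) (uIcc (a / x) L) := by
      intro u hu
      rw [uIcc_of_le hL] at hu
      have hu0 : 0 < u := lt_of_lt_of_le hpos hu.1
      show potW a x y z u = 0
      unfold potW
      rw [if_neg]
      have h3 : a / u ≤ x := by
        rw [div_le_iff₀ hu0]
        have := hu.1
        rw [div_le_iff₀ hx] at this
        linarith
      linarith
    rw [intervalIntegral.integral_congr this]
    simp
  have h1 := intervalIntegral.integral_add_adjacent_intervals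
    (potW_intervalIntegrable (a := a) (x := x) (y := y) (z := z) ha.le hx.le hy hz 0 (a / x))
    (potW_intervalIntegrable (a := a) (x := x) (y := y) (z := z) ha.le hx.le hy hz (a / x) L)
  unfold phiW
  linarith

/-- One sided bound: the two parameters `t₁ ≤ t₂`. -/
lemma phiW_sep_aux {a x y z t₁ t₂ : ℝ} (ha : 0 ≤ a) (hx : 0 ≤ x) (hy : 0 ≤ y) (hz : 0 ≤ z)
    (h1 : 0 ≤ t₁) (h12 : t₁ ≤ t₂) (h1x : 0 < t₁ + x) (h2z : 0 < t₂ + z) :
    phiW a x y z (a / (t₁ + x)) + phiW y z a x (y / (t₂ + z))
      ≤ Real.log (1 + a / (t₁ + x) + y / (t₂ + z)) := by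
  have ht2 : 0 ≤ t₂ := h1.trans h12
  set c := y / (t₂ + z) with hc
  have hc0 : 0 ≤ c := by positivity
  set K : ℝ → ℝ := fun s => phiW a x y z (a / (s + x)) - Real.log (1 + a / (s + x) + c) with hK
  have hcont : ContinuousOn K (Icc t₁ t₂) := by
    intro s hs
    have hs0 : 0 < s + x := by linarith [hs.1]
    have hx' : s + x ≠ 0 := hs0.ne'
    have h3 : ContinuousAt (fun s : ℝ => a / (s + x)) s := by fun_prop (disch := assumption)
    have h4 : ContinuousAt (fun s : ℝ => phiW a x y z (a / (s + x))) s :=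
      ContinuousAt.comp (f := fun s : ℝ => a / (s + x)) (g := phiW a x y z)
        (phiW_continuous ha hx hy hz).continuousAt h3
    have hne : 1 + a / (s + x) + c ≠ 0 := by positivity
    have h5 : ContinuousAt (fun s : ℝ => Real.log (1 + a / (s + x) + c)) s :=
      ((continuousAt_const.add h3).add continuousAt_const).log hne
    exact (h4.sub h5).continuousWithinAt
  have hderiv : ∀ s ∈ interior (Icc t₁ t₂), HasDerivAt K
      ((1 / (1 + a / (s + x) + y / (s + z)) - 1 / (1 + a / (s + x) + c)) * (-a / (s + x) ^ 2)) s := by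
    intro s hs
    rw [interior_Icc] at hs
    have hs0 : 0 < s := lt_of_le_of_lt h1 hs.1
    have hx' : s + x ≠ 0 := by positivity
    have h3 := phiW_curve_hasDerivAt (z := z) (y := y) ha hx hy hz hs0
    have hl1 : HasDerivAt (fun s : ℝ => a / (s + x)) (-a / (s + x) ^ 2) s := lam_hasDerivAt hx'
    have hne : 1 + a / (s + x) + c ≠ 0 := by positivity
    have h5 : HasDerivAt (fun s : ℝ => Real.log (1 + a / (s + x) + c))
        ((-a / (s + x) ^ 2) / (1 + a / (s + x) + c)) s :=
      ((hl1.const_add 1).add_const c).log hne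
    have h6 := h3.sub h5
    have e2 : (1 / (1 + a / (s + x) + y / (s + z)) - 1 / (1 + a / (s + x) + c)) * (-a / (s + x) ^ 2)
        = 1 / (1 + a / (s + x) + y / (s + z)) * (-a / (s + x) ^ 2)
          - (-a / (s + x) ^ 2) / (1 + a / (s + x) + c) := by ring
    rw [e2]
    exact h6
  have hmono : MonotoneOn K (Icc t₁ t₂) := by
    refine monotoneOn_of_deriv_nonneg (convex_Icc t₁ t₂) hcont
      (fun u hu => (hderiv u hu).differentiableAt.differentiableWithinAt) ?_
    intro s hs
    rw [(hderiv s hs).deriv]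
    rw [interior_Icc] at hs
    have hs0 : 0 < s := lt_of_le_of_lt h1 hs.1
    have hc1 : c ≤ y / (s + z) := by
      rw [hc]
      exact div_le_div_of_nonneg_left hy (by positivity) (by linarith [hs.2])
    have hA : 0 ≤ a / (s + x) := by positivity
    have h3 : 1 / (1 + a / (s + x) + y / (s + z)) ≤ 1 / (1 + a / (s + x) + c) :=
      one_div_le_one_div_of_le (by positivity) (by linarith)
    have h4 : -a / (s + x) ^ 2 ≤ 0 := by
      apply div_nonpos_of_nonpos_of_nonneg <;> [linarith; positivity]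
    exact mul_nonneg_of_nonpos_of_nonpos (by linarith) h4
  have hK12 := hmono (left_mem_Icc.mpr h12) (right_mem_Icc.mpr h12) h12
  have hW1 : phiW a x y z (a / (t₂ + x)) + phiW y z a x (y / (t₂ + z))
      = Real.log (1 + a / (t₂ + x) + y / (t₂ + z)) := by
    rcases ht2.eq_or_lt with h0 | h0
    · have ht1 : t₁ = 0 := le_antisymm (by linarith) h1
      have hxp : 0 < x := by rw [ht1] at h1x; linarith
      have hzp : 0 < z := by rw [← h0] at h2z; linarith
      exact phiW_curve_of_pos ha hxp hy hzp ht2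
    · exact phiW_curve ha hx hy hz h0
  simp only [hK] at hK12
  linarith

/-- (W2) The potentials are separated by the logarithm. -/
theorem phiW_sep {a x y z L M : ℝ} (ha : 0 ≤ a) (hx : 0 ≤ x) (hy : 0 ≤ y) (hz : 0 ≤ z)
    (hL : 0 ≤ L) (hM : 0 ≤ M) :
    phiW a x y z L + phiW y z a x M ≤ Real.log (1 + L + M) := by
  have hlog1 : Real.log (1 + L) ≤ Real.log (1 + L + M) :=
    Real.log_le_log (by linarith) (by linarith)
  have hlog2 : Real.log (1 + M) ≤ Real.log (1 + L + M) :=
    Real.log_le_log (by linarith) (by linarith)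
  rcases hL.eq_or_lt with rfl | hL0
  · rw [phiW_zero, zero_add]
    exact (phiW_le_log hy hz ha hx hM).trans hlog2
  rcases hM.eq_or_lt with rfl | hM0
  · rw [phiW_zero, add_zero]
    exact (phiW_le_log ha hx hy hz hL).trans hlog1
  rcases ha.eq_or_lt with rfl | ha0
  · rw [phiW_zero_left hx, zero_add]
    exact (phiW_le_log hy hz le_rfl hx hM).trans hlog2
  rcases hy.eq_or_lt with rfl | hy0
  · rw [phiW_zero_left hz, add_zero]
    exact (phiW_le_log ha hx le_rfl hz hL).trans hlog1
  -- reparametrize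
  have key : ∀ {a x y z L : ℝ}, 0 < a → 0 ≤ x → 0 ≤ y → 0 ≤ z → 0 < L →
      ∃ t, 0 ≤ t ∧ 0 < t + x ∧ phiW a x y z L = phiW a x y z (a / (t + x)) ∧ a / (t + x) ≤ L := by
    intro a x y z L ha hx hy hz hL
    by_cases h : a / L - x ≤ 0
    · have h1 : a / L ≤ x := by linarith
      have hxp : 0 < x := lt_of_lt_of_le (by positivity) h1
      refine ⟨0, le_rfl, by linarith, ?_, ?_⟩
      · rw [zero_add]
        apply phiW_flat ha hxp hy hz
        rw [div_le_iff₀ hxp]
        rw [div_le_iff₀ hL] at h1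
        linarith
      · rw [zero_add, div_le_iff₀ hxp]
        rw [div_le_iff₀ hL] at h1
        linarith
    · have h' : 0 < a / L - x := not_le.mp h
      have e : a / (a / L - x + x) = L := by
        have : a / L - x + x = a / L := by ring
        rw [this]
        field_simp
      refine ⟨a / L - x, h'.le, by linarith, ?_, ?_⟩
      · rw [e]
      · rw [e]
  obtain ⟨t₁, ht₁, hp₁, e₁, b₁⟩ := key ha0 hx hy hz hL0
  obtain ⟨t₂, ht₂, hp₂, e₂, b₂⟩ := key hy0 hz ha hx hM0
  rw [e₁, e₂]
  have hpos1 : 0 ≤ a / (t₁ + x) := by positivity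
  have hpos2 : 0 ≤ y / (t₂ + z) := by positivity
  have hmain : phiW a x y z (a / (t₁ + x)) + phiW y z a x (y / (t₂ + z))
      ≤ Real.log (1 + a / (t₁ + x) + y / (t₂ + z)) := by
    rcases le_total t₁ t₂ with h12 | h12
    · exact phiW_sep_aux ha hx hy hz ht₁ h12 hp₁ hp₂
    · have := phiW_sep_aux hy hz ha hx ht₂ h12 hp₂ hp₁
      have e : 1 + y / (t₂ + z) + a / (t₁ + x) = 1 + a / (t₁ + x) + y / (t₂ + z) := by ring
      rw [e] at this
      linarith
  refine hmain.trans ?_
  exact Real.log_le_log (by positivity) (by linarith)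

end Vale.Agent.P358
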