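import Vale.Agent.Lib.P358.ChainB

/-!
# P358, general parameters: concavity of the entropy with the trace terms
-/

set_option linter.unusedSectionVars false

open Matrix Real
open scoped ComplexOrder

namespace Vale.Agent.P358.G

variable {n : Type} [Fintype n] [DecidableEq n]

/-- The entropy does not change under conjugation with a unitary. -/
lemma stil_unitary_conj (Q U : Matrix n n ℂ) (hQ : Q ∈ unitaryGroup n ℂ) (hU : U.IsHermitian) :
    stil (Qᴴ * U * Q) = stil U := by
  obtain ⟨R, hR, hUR⟩ := exists_unitary_diag U hU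
  have hQ' : Qᴴ ∈ unitaryGroup n ℂ := by
    have := Unitary.star_mem hQ
    simpa [star_eq_conjTranspose] using this
  rw [stil_eq U hU]
  refine stil_of_unitary_diag (Qᴴ * R) (mul_mem hQ' hR) _ _ ?_
  conv_lhs => rw [hUR]
  rw [conjTranspose_mul, conjTranspose_conjTranspose]
  simp only [Matrix.mul_assoc]

/-- Superadditivity of `Hb` over a finite sum. -/
lemma sum_Hb_le {ι : Type} (s : Finset ι) (u v : ι → ℝ) (hu : ∀ k, 0 ≤ u k) (hv : ∀ k, 0 ≤ v k) :
    ∑ k ∈ s, Hb (u k) (u k + v k) ≤ Hb (∑ k ∈ s, u k) (∑ k ∈ s, (u k + v k)) := by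
  classical
  induction s using Finset.induction_on with
  | empty => simp [Hb]
  | insert a s ha ih =>
    rw [Finset.sum_insert ha, Finset.sum_insert ha, Finset.sum_insert ha]
    have h1 : 0 ≤ ∑ k ∈ s, u k := Finset.sum_nonneg fun k _ => hu k
    have h2 : ∑ k ∈ s, u k ≤ ∑ k ∈ s, (u k + v k) :=
      Finset.sum_le_sum fun k _ => by linarith [hv k]
    have h3 := Hb_add_le (hu a) (by linarith [hv a] : u a ≤ u a + v a) h1 h2
    linarith

/-- Concavity of the entropy in the form used in the assembly. -/
theorem path2_aux (U V : Matrix n n ℂ) (hU : U.PosSemidef) (hV : V.PosSemidef) :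
    stil U + stil V + negMulLog ((U.trace).re + (V.trace).re)
        - negMulLog (U.trace).re - negMulLog (V.trace).re ≤ stil (U + V) := by
  have hS : (U + V).PosSemidef := hU.add hV
  obtain ⟨Q, hQ, hSQ⟩ := exists_unitary_diag (U + V) hS.isHermitian
  set lam := hS.isHermitian.eigenvalues with hlam
  have h1 : Qᴴ * Q = 1 := by
    have := (mem_unitaryGroup_iff' (A := Q)).mp hQ
    simpa [star_eq_conjTranspose] using this
  have h2 : Q * Qᴴ = 1 := by
    have := (mem_unitaryGroup_iff (A := Q)).mp hQ
    simpa [star_eq_conjTranspose] using this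
  set U' := Qᴴ * U * Q with hU'
  set V' := Qᴴ * V * Q with hV'
  have hU'p : U'.PosSemidef := hU.conjTranspose_mul_mul_same Q
  have hV'p : V'.PosSemidef := hV.conjTranspose_mul_mul_same Q
  have hdiag : U' + V' = diagonal (fun k => ((lam k : ℝ) : ℂ)) := by
    have e1 : U' + V' = Qᴴ * (U + V) * Q := by
      rw [hU', hV', Matrix.mul_add, Matrix.add_mul]
    rw [e1, hSQ]
    calc Qᴴ * (Q * diagonal (fun k => ((lam k : ℝ) : ℂ)) * Qᴴ) * Q
        = (Qᴴ * Q) * diagonal (fun k => ((lam k : ℝ) : ℂ)) * (Qᴴ * Q) := by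
          simp only [Matrix.mul_assoc]
      _ = _ := by rw [h1, Matrix.one_mul, Matrix.mul_one]
  set u : n → ℝ := fun k => (U' k k).re with hu
  set v : n → ℝ := fun k => (V' k k).re with hv
  have hu0 : ∀ k, 0 ≤ u k := fun k => by
    have := hU'p.diag_nonneg (i := k)
    exact (Complex.le_def.mp this).1
  have hv0 : ∀ k, 0 ≤ v k := fun k => by
    have := hV'p.diag_nonneg (i := k)
    exact (Complex.le_def.mp this).1
  have huv : ∀ k, u k + v k = lam k := fun k => by
    have := congrFun (congrFun hdiag k) k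
    rw [Matrix.add_apply, diagonal_apply_eq] at this
    have h3 := congrArg Complex.re this
    simpa using h3
  have htrU : ∑ k, u k = (U.trace).re := by
    have h3 : U'.trace = U.trace := by
      rw [hU', trace_mul_comm, ← Matrix.mul_assoc, h2, Matrix.one_mul]
    rw [← h3]
    simp [Matrix.trace, hu]
  have htrV : ∑ k, v k = (V.trace).re := by
    have h3 : V'.trace = V.trace := by
      rw [hV', trace_mul_comm, ← Matrix.mul_assoc, h2, Matrix.one_mul]
    rw [← h3]
    simp [Matrix.trace, hv]
  have hsU : stil U ≤ ∑ k, negMulLog (u k) := by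
    rw [← stil_unitary_conj Q U hQ hU.isHermitian]
    exact stil_le_diag _ hU'p
  have hsV : stil V ≤ ∑ k, negMulLog (v k) := by
    rw [← stil_unitary_conj Q V hQ hV.isHermitian]
    exact stil_le_diag _ hV'p
  have hsS : stil (U + V) = ∑ k, negMulLog (u k + v k) := by
    rw [stil_eq _ hS.isHermitian]
    exact Finset.sum_congr rfl fun k _ => by rw [huv k]
  have hmain := sum_Hb_le Finset.univ u v hu0 hv0
  rw [Finset.sum_add_distrib, htrU, htrV] at hmain
  have hsum : ∑ k, Hb (u k) (u k + v k) =
      ∑ k, negMulLog (u k) + ∑ k, negMulLog (v k) - ∑ k, negMulLog (u k + v k) := by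
    rw [← Finset.sum_add_distrib, ← Finset.sum_sub_distrib]
    refine Finset.sum_congr rfl fun k _ => ?_
    unfold Hb
    rw [add_sub_cancel_left]
  rw [hsum] at hmain
  unfold Hb at hmain
  rw [add_sub_cancel_left] at hmain
  rw [hsS]
  linarith

end Vale.Agent.P358.G
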