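import Vale.Agent.Lib.P358.G.TI
import Vale.Agent.Lib.P358.G.Path2

/-!
# P358, general parameters: the entropic conditional inequality
-/

open Matrix Real MeasureTheory Set
open scoped ComplexOrder

namespace Vale.Agent.P358.G

variable {n : Type} [Fintype n] [DecidableEq n]

/-- Concavity of the entropy in the form used in the assembly. -/
theorem path2 (U V : Matrix n n ℂ) (hU : U.PosSemidef) (hV : V.PosSemidef) :
    stil U + stil V + negMulLog ((U.trace).re + (V.trace).re)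
        - negMulLog (U.trace).re - negMulLog (V.trace).re ≤ stil (U + V) :=
  path2_aux U V hU hV

section Assembly

lemma scal_mul_self {s : ℝ} (hs : 0 ≤ s) : scal √s * (scal √s)ᴴ = scal s := by
  ext i j
  have : ((√s : ℝ) : ℂ) * ((√s : ℝ) : ℂ) = (s : ℂ) := by
    rw [← Complex.ofReal_mul, Real.mul_self_sqrt hs]
  simp [scal, Matrix.mul_apply, this]

lemma stil_scal (s : ℝ) : stil (scal s) = negMulLog s := by
  have : scal s = Matrix.diagonal (fun _ : Unit => (s : ℂ)) := by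
    ext i j
    simp [scal, Matrix.diagonal]
  rw [this, stil_diagonal (fun _ : Unit => s)]
  simp

lemma trace_scal (s : ℝ) : ((scal s).trace).re = s := by
  simp [scal, Matrix.trace]

/-- The scalar value of the tree defect. -/
lemma Jval_scal {a x y z : ℝ} (ha : 0 ≤ a) (hy : 0 ≤ y) :
    Jval (scal √a) (scal √y) (scal x) (scal z) =
      stil (sig (scal √a) (scal √y) (scal x) (scal z))
        - negMulLog a - negMulLog y - negMulLog x - negMulLog z := by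
  unfold Jval
  rw [scal_mul_self ha, scal_mul_self hy, stil_scal, stil_scal, stil_scal, stil_scal]

/-- The equivalence of `Unit ⊕ Unit` with `Fin 2`. -/
def unitSumEquiv : Unit ⊕ Unit ≃ Fin 2 where
  toFun := Sum.elim (fun _ => 0) (fun _ => 1)
  invFun := fun i => if i = 0 then Sum.inl () else Sum.inr ()
  left_inv := by
    rintro (a | a) <;> simp
  right_inv := by
    intro i
    fin_cases i <;> simp

lemma sig_scal_eq (γ ν u v : ℝ) (h1 : γ ≤ 1) (hb : 0 < 1 - γ + γ * ν)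
    (hu : 0 ≤ u) (hv : 0 ≤ v) :
    sig (scal √((1 - γ) / (1 - γ + γ * ν) * u)) (scal √((1 - γ + γ * ν) * v))
        (scal ((γ * ν) * (γ * (1 - ν)) / (1 - γ + γ * ν) * u + γ * (1 - ν) * v))
        (scal (γ * ν * u)) =
      (gad γ ν (psi u v)).submatrix unitSumEquiv unitSumEquiv := by
  set b₂ := 1 - γ + γ * ν with hb₂
  have hy0 : 0 ≤ (1 - γ) / b₂ := div_nonneg (by linarith) hb.le
  have hoff : √((1 - γ) / b₂ * u) * √(b₂ * v) = √(1 - γ) * √(u * v) := by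
    rw [← Real.sqrt_mul (mul_nonneg hy0 hu), ← Real.sqrt_mul (by linarith : (0:ℝ) ≤ 1 - γ)]
    congr 1
    field_simp
  have hs1 : √((1 - γ) / b₂ * u) * √((1 - γ) / b₂ * u) = (1 - γ) / b₂ * u :=
    Real.mul_self_sqrt (mul_nonneg hy0 hu)
  have hs2 : √(b₂ * v) * √(b₂ * v) = b₂ * v := Real.mul_self_sqrt (mul_nonneg hb.le hv)
  have hoffC : ((√((1 - γ) / b₂ * u) : ℝ) : ℂ) * ((√(b₂ * v) : ℝ) : ℂ) =
      ((√(1 - γ) : ℝ) : ℂ) * ((√(u * v) : ℝ) : ℂ) := by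
    rw [← Complex.ofReal_mul, ← Complex.ofReal_mul, hoff]
  have hs1C : ((√((1 - γ) / b₂ * u) : ℝ) : ℂ) * ((√((1 - γ) / b₂ * u) : ℝ) : ℂ) =
      (((1 - γ) / b₂ * u : ℝ) : ℂ) := by
    rw [← Complex.ofReal_mul, hs1]
  have hs2C : ((√(b₂ * v) : ℝ) : ℂ) * ((√(b₂ * v) : ℝ) : ℂ) = ((b₂ * v : ℝ) : ℂ) := by
    rw [← Complex.ofReal_mul, hs2]
  have h11 : (1 - γ) / b₂ * u + ((γ * ν) * (γ * (1 - ν)) / b₂ * u + γ * (1 - ν) * v) =
      u + v - ((1 - γ) * v + γ * ν * (u + v)) := by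
    field_simp
    rw [hb₂]
    ring
  have h22 : b₂ * v + γ * ν * u = (1 - γ) * v + γ * ν * (u + v) := by
    rw [hb₂]; ring
  ext p q
  rcases p with ⟨⟩ | ⟨⟩ <;> rcases q with ⟨⟩ | ⟨⟩
  · simp only [sig, fromBlocks_apply₁₁, Matrix.add_apply, Matrix.mul_apply, conjTranspose_apply]
    simp only [scal, Fintype.sum_unique, Complex.star_def, Complex.conj_ofReal, hs1C]
    simp only [submatrix_apply, unitSumEquiv, Equiv.coe_fn_mk, Sum.elim_inl, gad, psi]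
    have := congrArg (fun t : ℝ => (t : ℂ)) h11
    push_cast at this ⊢
    simpa using this
  · simp only [sig, fromBlocks_apply₁₂, Matrix.mul_apply, conjTranspose_apply]
    simp only [scal, Fintype.sum_unique, Complex.star_def, Complex.conj_ofReal, hoffC]
    simp [submatrix_apply, unitSumEquiv, gad, psi]
  · simp only [sig, fromBlocks_apply₂₁, Matrix.mul_apply, conjTranspose_apply]
    simp only [scal, Fintype.sum_unique, Complex.star_def, Complex.conj_ofReal]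
    rw [mul_comm, hoffC]
    simp [submatrix_apply, unitSumEquiv, gad, psi]
  · simp only [sig, fromBlocks_apply₂₂, Matrix.add_apply, Matrix.mul_apply, conjTranspose_apply]
    simp only [scal, Fintype.sum_unique, Complex.star_def, Complex.conj_ofReal, hs2C]
    simp only [submatrix_apply, unitSumEquiv, Equiv.coe_fn_mk, Sum.elim_inr, gad, psi]
    have := congrArg (fun t : ℝ => (t : ℂ)) h22
    push_cast at this ⊢
    simpa using this


set_option linter.unusedSectionVars false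

variable {α : Type} [Fintype α] [DecidableEq α]

/-- The output of the channel in blocks, as a tree. -/
lemma submatrix_tensorMap_sig (γ ν : ℝ) (h1 : γ ≤ 1) (hb : 0 < 1 - γ + γ * ν)
    (G0 G1 : Matrix α (Fin 2 × α) ℂ) (ρ : Matrix (Fin 2 × α) (Fin 2 × α) ℂ)
    (h00 : block 0 0 ρ = G0 * G0ᴴ) (h01 : block 0 1 ρ = G0 * G1ᴴ)
    (h10 : block 1 0 ρ = G1 * G0ᴴ) (h11 : block 1 1 ρ = G1 * G1ᴴ) :
    (tensorMap (gad γ ν) id ρ).submatrix (sumEquiv α) (sumEquiv α) =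
      sig (((√((1 - γ) / (1 - γ + γ * ν)) : ℝ) : ℂ) • G0) (((√(1 - γ + γ * ν) : ℝ) : ℂ) • G1)
        ((((γ * ν) * (γ * (1 - ν)) / (1 - γ + γ * ν) : ℝ) : ℂ) • (G0 * G0ᴴ)
          + ((γ * (1 - ν) : ℝ) : ℂ) • (G1 * G1ᴴ))
        (((γ * ν : ℝ) : ℂ) • (G0 * G0ᴴ)) := by
  set b₂ := 1 - γ + γ * ν with hb₂
  have hy0 : 0 ≤ (1 - γ) / b₂ := div_nonneg (by linarith) hb.le
  have hoff : √((1 - γ) / b₂) * √b₂ = √(1 - γ) := by
    rw [← Real.sqrt_mul hy0]
    congr 1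
    field_simp
  have hs1 : √((1 - γ) / b₂) * √((1 - γ) / b₂) = (1 - γ) / b₂ := Real.mul_self_sqrt hy0
  have hs2 : √b₂ * √b₂ = b₂ := Real.mul_self_sqrt hb.le
  have hoffC : ((√((1 - γ) / b₂) : ℝ) : ℂ) * ((√b₂ : ℝ) : ℂ) = ((√(1 - γ) : ℝ) : ℂ) := by
    rw [← Complex.ofReal_mul, hoff]
  have hs1C : ((√((1 - γ) / b₂) : ℝ) : ℂ) * ((√((1 - γ) / b₂) : ℝ) : ℂ) =
      (((1 - γ) / b₂ : ℝ) : ℂ) := by
    rw [← Complex.ofReal_mul, hs1]
  have hs2C : ((√b₂ : ℝ) : ℂ) * ((√b₂ : ℝ) : ℂ) = ((b₂ : ℝ) : ℂ) := by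
    rw [← Complex.ofReal_mul, hs2]
  have h11' : (1 - γ) / b₂ + (γ * ν) * (γ * (1 - ν)) / b₂ = 1 - γ * ν := by
    field_simp
    rw [hb₂]
    ring
  have h11C : (((1 - γ) / b₂ : ℝ) : ℂ) + (((γ * ν) * (γ * (1 - ν)) / b₂ : ℝ) : ℂ)
      = 1 - (γ : ℂ) * ν := by
    have := congrArg (fun t : ℝ => (t : ℂ)) h11'
    push_cast at this ⊢
    exact this
  have hb₂C : (b₂ : ℂ) = 1 - (γ : ℂ) + γ * ν := by
    rw [hb₂]; push_cast; ring
  have hA : ∀ x y : α, ((((√((1 - γ) / b₂) : ℝ) : ℂ) • G0) * ((((√((1 - γ) / b₂) : ℝ) : ℂ) • G0))ᴴ) x y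
      = (((1 - γ) / b₂ : ℝ) : ℂ) * (G0 * G0ᴴ) x y := by
    intro x y
    rw [conjTranspose_smul, Matrix.smul_mul, Matrix.mul_smul, Matrix.smul_apply, Matrix.smul_apply]
    simp only [Complex.star_def, Complex.conj_ofReal, smul_eq_mul, ← mul_assoc, hs1C]
  have hB : ∀ x y : α, ((((√b₂ : ℝ) : ℂ) • G1) * ((((√b₂ : ℝ) : ℂ) • G1))ᴴ) x y
      = ((b₂ : ℝ) : ℂ) * (G1 * G1ᴴ) x y := by
    intro x y
    rw [conjTranspose_smul, Matrix.smul_mul, Matrix.mul_smul, Matrix.smul_apply, Matrix.smul_apply]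
    simp only [Complex.star_def, Complex.conj_ofReal, smul_eq_mul, ← mul_assoc, hs2C]
  have hAB : ∀ x y : α, ((((√((1 - γ) / b₂) : ℝ) : ℂ) • G0) * ((((√b₂ : ℝ) : ℂ) • G1))ᴴ) x y
      = ((√(1 - γ) : ℝ) : ℂ) * (G0 * G1ᴴ) x y := by
    intro x y
    rw [conjTranspose_smul, Matrix.smul_mul, Matrix.mul_smul, Matrix.smul_apply, Matrix.smul_apply]
    simp only [Complex.star_def, Complex.conj_ofReal, smul_eq_mul, ← mul_assoc, hoffC]
  have hBA : ∀ x y : α, ((((√b₂ : ℝ) : ℂ) • G1) * ((((√((1 - γ) / b₂) : ℝ) : ℂ) • G0))ᴴ) x y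
      = ((√(1 - γ) : ℝ) : ℂ) * (G1 * G0ᴴ) x y := by
    intro x y
    rw [conjTranspose_smul, Matrix.smul_mul, Matrix.mul_smul, Matrix.smul_apply, Matrix.smul_apply]
    simp only [Complex.star_def, Complex.conj_ofReal, smul_eq_mul, ← mul_assoc]
    rw [mul_comm ((√b₂ : ℝ) : ℂ), hoffC]
  have e00 : ∀ a b, ρ (0, a) (0, b) = (G0 * G0ᴴ) a b := fun a b => congrFun (congrFun h00 a) b
  have e01 : ∀ a b, ρ (0, a) (1, b) = (G0 * G1ᴴ) a b := fun a b => congrFun (congrFun h01 a) b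
  have e10 : ∀ a b, ρ (1, a) (0, b) = (G1 * G0ᴴ) a b := fun a b => congrFun (congrFun h10 a) b
  have e11 : ∀ a b, ρ (1, a) (1, b) = (G1 * G1ᴴ) a b := fun a b => congrFun (congrFun h11 a) b
  ext p q
  rcases p with a | a <;> rcases q with b | b
  · simp only [sig, fromBlocks_apply₁₁, Matrix.add_apply, hA, Matrix.smul_apply, smul_eq_mul]
    simp only [submatrix_apply, sumEquiv, Equiv.coe_fn_mk, Sum.elim_inl, tensorMap, gad, id, e00,
      e11]
    simp only [of_apply, cons_val', cons_val_zero, cons_val_fin_one]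
    have hc1 : ((γ * ν : ℝ) : ℂ) = (γ : ℂ) * ν := by push_cast; ring
    have hc2 : ((1 - γ : ℝ) : ℂ) = 1 - (γ : ℂ) := by push_cast; ring
    have hc3 : ((γ * (1 - ν) : ℝ) : ℂ) = (γ : ℂ) * (1 - ν) := by push_cast; ring
    rw [hc3]
    simp only [Complex.ofReal_mul, Complex.ofReal_sub, Complex.ofReal_one] at *
    linear_combination (-(G0 * G0ᴴ) a b) * h11C
  · simp only [sig, fromBlocks_apply₁₂, hAB]
    simp [submatrix_apply, sumEquiv, tensorMap, gad, id, e01]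
  · simp only [sig, fromBlocks_apply₂₁, hBA]
    simp [submatrix_apply, sumEquiv, tensorMap, gad, id, e10]
  · simp only [sig, fromBlocks_apply₂₂, Matrix.add_apply, hB, Matrix.smul_apply, smul_eq_mul]
    simp only [submatrix_apply, sumEquiv, Equiv.coe_fn_mk, Sum.elim_inr, tensorMap, gad, id, e00,
      e11]
    simp [hb₂C]
    ring


lemma smul_mul_self_re {s : ℝ} (hs : 0 ≤ s) (G : Matrix α (Fin 2 × α) ℂ) :
    (((√s : ℝ) : ℂ) • G) * (((√s : ℝ) : ℂ) • G)ᴴ = ((s : ℝ) : ℂ) • (G * Gᴴ) := by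
  rw [conjTranspose_smul, Matrix.smul_mul, Matrix.mul_smul, smul_smul]
  congr 1
  simp only [Complex.star_def, Complex.conj_ofReal]
  rw [← Complex.ofReal_mul, Real.mul_self_sqrt hs]

lemma trace_smul_re (s : ℝ) (X : Matrix α α ℂ) : ((((s : ℝ) : ℂ) • X).trace).re = s * (X.trace).re := by
  rw [trace_smul, smul_eq_mul, Complex.re_ofReal_mul]

/-- The core inequality in terms of the rows of a factor. -/
theorem ECI_core_gad (γ ν : ℝ) (h0 : 0 ≤ γ) (h1 : γ ≤ 1) (h2 : 0 ≤ ν) (h3 : ν ≤ 1)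
    (hb : 0 < 1 - γ + γ * ν) (G0 G1 : Matrix α (Fin 2 × α) ℂ) :
    stil (G0 * G0ᴴ) + stil (G1 * G1ᴴ)
        + stil (gad γ ν (psi (((G0 * G0ᴴ).trace).re) (((G1 * G1ᴴ).trace).re)))
        - negMulLog (((G0 * G0ᴴ).trace).re) - negMulLog (((G1 * G1ᴴ).trace).re)
      ≤ stil (sig (((√((1 - γ) / (1 - γ + γ * ν)) : ℝ) : ℂ) • G0) (((√(1 - γ + γ * ν) : ℝ) : ℂ) • G1)
        ((((γ * ν) * (γ * (1 - ν)) / (1 - γ + γ * ν) : ℝ) : ℂ) • (G0 * G0ᴴ)
          + ((γ * (1 - ν) : ℝ) : ℂ) • (G1 * G1ᴴ))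
        (((γ * ν : ℝ) : ℂ) • (G0 * G0ᴴ))) := by
  set b₂ := 1 - γ + γ * ν with hb₂
  set b₁ := γ * (1 - ν) with hb₁
  set a₂ := γ * ν with ha₂
  set yy := (1 - γ) / b₂ with hyy
  set xx := a₂ * b₁ / b₂ with hxx
  have hyy0 : 0 ≤ yy := div_nonneg (by linarith) hb.le
  have hb₁0 : 0 ≤ b₁ := mul_nonneg h0 (by linarith)
  have ha₂0 : 0 ≤ a₂ := mul_nonneg h0 h2
  have hxx0 : 0 ≤ xx := div_nonneg (mul_nonneg ha₂0 hb₁0) hb.le
  have hsum1 : yy + xx + a₂ = 1 := by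
    rw [hyy, hxx]
    field_simp
    rw [hb₂, hb₁, ha₂]
    ring
  have hsum2 : b₂ + b₁ = 1 := by
    rw [hb₂, hb₁, ha₂]
    ring
  set P := G0 * G0ᴴ with hP
  set R := G1 * G1ᴴ with hR
  have hPp : P.PosSemidef := posSemidef_self_mul_conjTranspose G0
  have hRp : R.PosSemidef := posSemidef_self_mul_conjTranspose G1
  set u := (P.trace).re with hu
  set v := (R.trace).re with hv
  have hu0 : 0 ≤ u := (Complex.le_def.mp hPp.trace_nonneg).1
  have hv0 : 0 ≤ v := (Complex.le_def.mp hRp.trace_nonneg).1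
  have hC : ∀ {s : ℝ}, 0 ≤ s → (0 : ℂ) ≤ ((s : ℝ) : ℂ) := fun hs => by exact_mod_cast hs
  have hXp : (((xx : ℝ) : ℂ) • P).PosSemidef := hPp.smul (hC hxx0)
  have hVp : (((b₁ : ℝ) : ℂ) • R).PosSemidef := hRp.smul (hC hb₁0)
  have hZp : (((a₂ : ℝ) : ℂ) • P).PosSemidef := hPp.smul (hC ha₂0)
  set A := ((√yy : ℝ) : ℂ) • G0 with hA
  set B := ((√b₂ : ℝ) : ℂ) • G1 with hB
  have hTI := tree_inequality A B (((xx : ℝ) : ℂ) • P + ((b₁ : ℝ) : ℂ) • R)
    (((a₂ : ℝ) : ℂ) • P) (hXp.add hVp) hZp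
  have hAA : A * Aᴴ = ((yy : ℝ) : ℂ) • P := smul_mul_self_re hyy0 G0
  have hBB : B * Bᴴ = ((b₂ : ℝ) : ℂ) • R := smul_mul_self_re hb.le G1
  have tX : (((((xx : ℝ) : ℂ) • P + ((b₁ : ℝ) : ℂ) • R)).trace).re = xx * u + b₁ * v := by
    rw [trace_add, Complex.add_re, trace_smul_re, trace_smul_re]
  have hJ := Jval_scal (a := yy * u) (y := b₂ * v) (x := xx * u + b₁ * v) (z := a₂ * u)
    (mul_nonneg hyy0 hu0) (mul_nonneg hb.le hv0)
  have hsigs := sig_scal_eq γ ν u v h1 hb hu0 hv0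
  have hre : stil (sig (scal √(yy * u)) (scal √(b₂ * v)) (scal (xx * u + b₁ * v)) (scal (a₂ * u)))
      = stil (gad γ ν (psi u v)) := by
    rw [hsigs]
    have := stil_reindex unitSumEquiv.symm (gad γ ν (psi u v))
    rwa [Equiv.symm_symm] at this
  rw [hAA, hBB, trace_smul_re, trace_smul_re, tX, trace_smul_re, hJ, hre] at hTI
  unfold Jval at hTI
  rw [hAA, hBB, stil_smul _ hPp.isHermitian, stil_smul _ hRp.isHermitian,
    stil_smul _ hPp.isHermitian] at hTI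
  have hp2 := path2 (((xx : ℝ) : ℂ) • P) (((b₁ : ℝ) : ℂ) • R) hXp hVp
  rw [trace_smul_re, trace_smul_re, stil_smul _ hPp.isHermitian, stil_smul _ hRp.isHermitian] at hp2
  rw [negMulLog_mul yy u, negMulLog_mul b₂ v, negMulLog_mul a₂ u] at hTI
  rw [negMulLog_mul xx u, negMulLog_mul b₁ v] at hp2
  have e1 : yy * stil P + xx * stil P + a₂ * stil P = stil P := by
    rw [← add_mul, ← add_mul, hsum1, one_mul]
  have e2 : b₂ * stil R + b₁ * stil R = stil R := by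
    rw [← add_mul, hsum2, one_mul]
  have e3 : yy * negMulLog u + xx * negMulLog u + a₂ * negMulLog u = negMulLog u := by
    rw [← add_mul, ← add_mul, hsum1, one_mul]
  have e4 : b₂ * negMulLog v + b₁ * negMulLog v = negMulLog v := by
    rw [← add_mul, hsum2, one_mul]
  simp only [← hu, ← hv] at hTI hp2
  linarith

/-- The entropic conditional inequality when `1 - γ + γ ν` is positive. -/
theorem ECI_gad_pos (γ ν : ℝ) (h0 : 0 ≤ γ) (h1 : γ ≤ 1) (h2 : 0 ≤ ν) (h3 : ν ≤ 1)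
    (hb : 0 < 1 - γ + γ * ν) : ECI γ ν := by
  intro α _ _ ρ hρ
  obtain ⟨N, hN⟩ := exists_factor ρ hρ
  let G0 : Matrix α (Fin 2 × α) ℂ := fun a w => Nᴴ (0, a) w
  let G1 : Matrix α (Fin 2 × α) ℂ := fun a w => Nᴴ (1, a) w
  have hbk : ∀ (i j : Fin 2) (Gi Gj : Matrix α (Fin 2 × α) ℂ),
      (∀ a w, Gi a w = Nᴴ (i, a) w) → (∀ a w, Gj a w = Nᴴ (j, a) w) →
      block i j ρ = Gi * Gjᴴ := by
    intro i j Gi Gj hi hj
    ext a b
    rw [hN]
    simp only [block, Matrix.mul_apply, conjTranspose_apply, hi, hj, star_star]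
  have h00 := hbk 0 0 G0 G0 (fun _ _ => rfl) (fun _ _ => rfl)
  have h01 := hbk 0 1 G0 G1 (fun _ _ => rfl) (fun _ _ => rfl)
  have h10 := hbk 1 0 G1 G0 (fun _ _ => rfl) (fun _ _ => rfl)
  have h11 := hbk 1 1 G1 G1 (fun _ _ => rfl) (fun _ _ => rfl)
  have hcore := ECI_core_gad γ ν h0 h1 h2 h3 hb G0 G1
  rw [← submatrix_tensorMap_sig γ ν h1 hb G0 G1 ρ h00 h01 h10 h11] at hcore
  have hr := stil_reindex (sumEquiv α).symm (tensorMap (gad γ ν) id ρ)
  rw [Equiv.symm_symm] at hr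
  rw [hr, ← h00, ← h11] at hcore
  exact hcore

end Assembly

/-- The entropic conditional inequality for all parameters. -/
theorem ECI_gad (γ ν : ℝ) (h0 : 0 ≤ γ) (h1 : γ ≤ 1) (h2 : 0 ≤ ν) (h3 : ν ≤ 1) : ECI γ ν := by
  by_cases hν : ν = 0
  · subst hν
    exact ECI_ad γ h0 h1
  · refine ECI_gad_pos γ ν h0 h1 h2 h3 ?_
    have hν0 : 0 < ν := lt_of_le_of_ne h2 (Ne.symm hν)
    rcases eq_or_lt_of_le h1 with h | h
    · subst h; simpa using hν0
    · have := mul_nonneg h0 h2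
      linarith

end Vale.Agent.P358.G
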