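import Mathlib

/-!
# P358: the Tonelli identity behind the side bound

Abstract form: finite families of curves `h j` and atoms `p k`, counting functions
`N t l = #{j : t < h j l}` and `N0 t l = #{k : t l < p k}`, a weight `0 ≤ w l ≤ 1 / (1 + l)`.
-/

open MeasureTheory Set

namespace Vale.Agent.P358

section

variable {J K : Type} [Fintype J] [Fintype K]

/-- Counting function of the curves. -/
noncomputable def absN (h : J → ℝ → ℝ) (t l : ℝ) : ℝ := ∑ j, if t < h j l then 1 else 0

/-- Counting function of the atoms. -/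
noncomputable def absN0 (p : K → ℝ) (t l : ℝ) : ℝ := ∑ k, if t * l < p k then 1 else 0

/-- The nonnegative double integrand. -/
noncomputable def absF (h : J → ℝ → ℝ) (p : K → ℝ) (w : ℝ → ℝ) (t l : ℝ) : ℝ :=
  absN0 p t l / (1 + l) - w l * absN h t l

lemma absN_nonneg (h : J → ℝ → ℝ) (t l : ℝ) : 0 ≤ absN h t l := by
  unfold absN
  apply Finset.sum_nonneg
  intro j _
  split_ifs <;> norm_num

lemma absN0_nonneg (p : K → ℝ) (t l : ℝ) : 0 ≤ absN0 p t l := by
  unfold absN0
  apply Finset.sum_nonneg
  intro j _
  split_ifs <;> norm_num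

/-- The basic integral in `t`. -/
lemma integrableOn_ite_lt (u : ℝ) :
    IntegrableOn (fun t : ℝ => if t < u then (1 : ℝ) else 0) (Ioi 0) := by
  have e : (fun t : ℝ => if t < u then (1 : ℝ) else 0) = (Iio u).indicator (fun _ => (1 : ℝ)) := by
    funext t
    simp [indicator_apply]
  rw [e, IntegrableOn, integrable_indicator_iff measurableSet_Iio]
  rw [IntegrableOn, Measure.restrict_restrict measurableSet_Iio]
  have : Iio u ∩ Ioi (0 : ℝ) = Ioo 0 u := by
    ext t; simp [and_comm]
  rw [this]
  exact integrableOn_const (by simp) (by simp)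

lemma integral_ite_lt (u : ℝ) :
    ∫ t in Ioi (0 : ℝ), (if t < u then (1 : ℝ) else 0) = max u 0 := by
  have e : (fun t : ℝ => if t < u then (1 : ℝ) else 0) = (Iio u).indicator (fun _ => (1 : ℝ)) := by
    funext t
    simp [indicator_apply]
  rw [e, integral_indicator measurableSet_Iio, Measure.restrict_restrict measurableSet_Iio]
  have : Iio u ∩ Ioi (0 : ℝ) = Ioo 0 u := by
    ext t; simp [and_comm]
  rw [this]
  simp only [integral_const, MeasurableSet.univ, measureReal_restrict_apply, univ_inter, smul_eq_mul,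
    mul_one, Real.volume_real_Ioo, sub_zero]

/-- Atoms in the variable `l`. -/
lemma integral_atom_l {t p : ℝ} (ht : 0 < t) (hp : 0 ≤ p) :
    IntegrableOn (fun l : ℝ => (if t * l < p then (1 : ℝ) else 0) / (1 + l)) (Ioi 0) ∧
    ∫ l in Ioi (0 : ℝ), (if t * l < p then (1 : ℝ) else 0) / (1 + l) = Real.log (1 + p / t) := by
  have e : (fun l : ℝ => (if t * l < p then (1 : ℝ) else 0) / (1 + l))
      = (Iio (p / t)).indicator (fun l => 1 / (1 + l)) := by
    funext l
    simp only [indicator_apply, mem_Iio, lt_div_iff₀ ht, mul_comm l t]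
    split_ifs <;> simp
  have hs : Iio (p / t) ∩ Ioi (0 : ℝ) = Ioo 0 (p / t) := by
    ext l; simp [and_comm]
  have hpt : 0 ≤ p / t := div_nonneg hp ht.le
  have hcont : ContinuousOn (fun l : ℝ => 1 / (1 + l)) (Icc 0 (p / t)) := by
    apply ContinuousOn.div continuousOn_const (by fun_prop)
    intro l hl
    have := hl.1
    positivity
  have hint : IntervalIntegrable (fun l : ℝ => 1 / (1 + l)) volume 0 (p / t) := by
    apply ContinuousOn.intervalIntegrable
    rwa [uIcc_of_le hpt]
  constructor
  · rw [e, IntegrableOn, integrable_indicator_iff measurableSet_Iio, IntegrableOn,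
      Measure.restrict_restrict measurableSet_Iio, hs]
    have := (intervalIntegrable_iff_integrableOn_Ioo_of_le hpt).mp hint
    exact this
  · rw [e, integral_indicator measurableSet_Iio, Measure.restrict_restrict measurableSet_Iio, hs]
    rw [← integral_Ioc_eq_integral_Ioo, ← intervalIntegral.integral_of_le hpt]
    have hderiv : ∀ l ∈ uIcc 0 (p / t), HasDerivAt (fun l : ℝ => Real.log (1 + l)) (1 / (1 + l)) l := by
      intro l hl
      rw [uIcc_of_le hpt] at hl
      have h1 : (1 + l) ≠ 0 := by have := hl.1; positivity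
      have := ((hasDerivAt_id l).const_add 1).log h1
      simpa using this
    rw [intervalIntegral.integral_eq_sub_of_hasDerivAt hderiv hint]
    simp

/-- Atoms in the variable `t`. -/
lemma integral_atom_t {l p : ℝ} (hl : 0 < l) (hp : 0 ≤ p) :
    IntegrableOn (fun t : ℝ => if t * l < p then (1 : ℝ) else 0) (Ioi 0) ∧
    ∫ t in Ioi (0 : ℝ), (if t * l < p then (1 : ℝ) else 0) = p / l := by
  have e : (fun t : ℝ => if t * l < p then (1 : ℝ) else 0)
      = (fun t : ℝ => if t < p / l then (1 : ℝ) else 0) := by
    funext t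
    simp only [lt_div_iff₀ hl]
  rw [e]
  refine ⟨integrableOn_ite_lt _, ?_⟩
  rw [integral_ite_lt, max_eq_left (div_nonneg hp hl.le)]

lemma absF_measurable (h : J → ℝ → ℝ) (hm : ∀ j, Measurable (h j)) (p : K → ℝ) (w : ℝ → ℝ)
    (hw : Measurable w) : Measurable (Function.uncurry (absF h p w)) := by
  have h1 : Measurable (fun q : ℝ × ℝ => absN h q.1 q.2) := by
    unfold absN
    apply Finset.measurable_sum
    intro j _
    apply Measurable.ite
    · exact measurableSet_lt measurable_fst ((hm j).comp measurable_snd)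
    · exact measurable_const
    · exact measurable_const
  have h2 : Measurable (fun q : ℝ × ℝ => absN0 p q.1 q.2) := by
    unfold absN0
    apply Finset.measurable_sum
    intro k _
    apply Measurable.ite
    · exact measurableSet_lt (measurable_fst.mul measurable_snd) measurable_const
    · exact measurable_const
    · exact measurable_const
  have h3 : Measurable (fun q : ℝ × ℝ => w q.2) := hw.comp measurable_snd
  have h4 : Measurable (fun q : ℝ × ℝ => (1 : ℝ) + q.2) := measurable_snd.const_add 1
  exact (h2.div h4).sub (h3.mul h1)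

/-- **The Tonelli identity.** -/
theorem tonelli_abs (h : J → ℝ → ℝ) (hm : ∀ j, Measurable (h j)) (p : K → ℝ) (hp : ∀ k, 0 ≤ p k)
    (w : ℝ → ℝ) (hw : Measurable w) (hw0 : ∀ l, 0 < l → 0 ≤ w l)
    (hw1 : ∀ l, 0 < l → w l ≤ 1 / (1 + l))
    (hN : ∀ t, 0 < t → ∀ l, 0 < l → absN h t l ≤ absN0 p t l) :
    ∫⁻ t in Ioi (0 : ℝ), ENNReal.ofReal
        (∑ k, Real.log (1 + p k / t) - ∫ l in Ioi (0 : ℝ), w l * absN h t l)
      = ∫⁻ l in Ioi (0 : ℝ), ENNReal.ofReal
        ((∑ k, p k) / l / (1 + l) - w l * ∑ j, max (h j l) 0) := by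
  have hFnn : ∀ t, 0 < t → ∀ l, 0 < l → 0 ≤ absF h p w t l := by
    intro t ht l hl
    unfold absF
    have h1 : 0 < 1 + l := by positivity
    have h2 : w l * absN h t l ≤ 1 / (1 + l) * absN0 p t l :=
      mul_le_mul (hw1 l hl) (hN t ht l hl) (absN_nonneg _ _ _) (by positivity)
    have h3 : 1 / (1 + l) * absN0 p t l = absN0 p t l / (1 + l) := by ring
    linarith
  -- fixed t
  have step1 : ∀ t ∈ Ioi (0 : ℝ), ∫⁻ l in Ioi (0 : ℝ), ENNReal.ofReal (absF h p w t l)
      = ENNReal.ofReal (∑ k, Real.log (1 + p k / t) - ∫ l in Ioi (0 : ℝ), w l * absN h t l) := by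
    intro t ht
    have ht' : 0 < t := ht
    have i1 : IntegrableOn (fun l => absN0 p t l / (1 + l)) (Ioi 0) := by
      have : (fun l => absN0 p t l / (1 + l))
          = fun l => ∑ k, (if t * l < p k then (1 : ℝ) else 0) / (1 + l) := by
        funext l; unfold absN0; rw [Finset.sum_div]
      rw [this]
      exact integrable_finsetSum _ (fun k _ => (integral_atom_l ht' (hp k)).1)
    have i1' : ∫ l in Ioi (0 : ℝ), absN0 p t l / (1 + l) = ∑ k, Real.log (1 + p k / t) := by
      have : (fun l => absN0 p t l / (1 + l))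
          = fun l => ∑ k, (if t * l < p k then (1 : ℝ) else 0) / (1 + l) := by
        funext l; unfold absN0; rw [Finset.sum_div]
      rw [this, integral_finsetSum _ (fun k _ => (integral_atom_l ht' (hp k)).1)]
      exact Finset.sum_congr rfl (fun k _ => (integral_atom_l ht' (hp k)).2)
    have hmeas : Measurable (fun l => w l * absN h t l) := by
      have := absF_measurable h hm p w hw
      apply hw.mul
      unfold absN
      apply Finset.measurable_sum
      intro j _
      apply Measurable.ite
      · exact measurableSet_lt measurable_const (hm j)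
      · exact measurable_const
      · exact measurable_const
    have i2 : IntegrableOn (fun l => w l * absN h t l) (Ioi 0) := by
      refine Integrable.mono' i1 hmeas.aestronglyMeasurable ?_
      rw [ae_restrict_iff' measurableSet_Ioi]
      refine Filter.Eventually.of_forall (fun l hl => ?_)
      have hl' : 0 < l := hl
      rw [Real.norm_of_nonneg (mul_nonneg (hw0 l hl') (absN_nonneg _ _ _))]
      have h1 : 0 < 1 + l := by positivity
      have h2 : w l * absN h t l ≤ 1 / (1 + l) * absN0 p t l :=
        mul_le_mul (hw1 l hl') (hN t ht' l hl') (absN_nonneg _ _ _) (by positivity)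
      have h3 : 1 / (1 + l) * absN0 p t l = absN0 p t l / (1 + l) := by ring
      linarith
    have i3 : IntegrableOn (absF h p w t) (Ioi 0) := i1.sub i2
    have e3 : ∫ l in Ioi (0 : ℝ), absF h p w t l
        = ∑ k, Real.log (1 + p k / t) - ∫ l in Ioi (0 : ℝ), w l * absN h t l := by
      unfold absF
      rw [integral_sub i1 i2, i1']
    rw [← e3]
    refine (ofReal_integral_eq_lintegral_ofReal i3 ?_).symm
    rw [Filter.EventuallyLE, ae_restrict_iff' measurableSet_Ioi]
    exact Filter.Eventually.of_forall (fun l hl => hFnn t ht' l hl)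
  -- fixed l
  have step2 : ∀ l ∈ Ioi (0 : ℝ), ∫⁻ t in Ioi (0 : ℝ), ENNReal.ofReal (absF h p w t l)
      = ENNReal.ofReal ((∑ k, p k) / l / (1 + l) - w l * ∑ j, max (h j l) 0) := by
    intro l hl
    have hl' : 0 < l := hl
    have i1 : IntegrableOn (fun t => absN0 p t l) (Ioi 0) := by
      unfold absN0
      exact integrable_finsetSum _ (fun k _ => (integral_atom_t hl' (hp k)).1)
    have i1' : ∫ t in Ioi (0 : ℝ), absN0 p t l = (∑ k, p k) / l := by
      unfold absN0
      rw [integral_finsetSum _ (fun k _ => (integral_atom_t hl' (hp k)).1), Finset.sum_div]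
      exact Finset.sum_congr rfl (fun k _ => (integral_atom_t hl' (hp k)).2)
    have i2 : IntegrableOn (fun t => absN h t l) (Ioi 0) := by
      unfold absN
      exact integrable_finsetSum _ (fun j _ => integrableOn_ite_lt _)
    have i2' : ∫ t in Ioi (0 : ℝ), absN h t l = ∑ j, max (h j l) 0 := by
      unfold absN
      rw [integral_finsetSum _ (fun j _ => integrableOn_ite_lt _)]
      exact Finset.sum_congr rfl (fun j _ => integral_ite_lt _)
    have i3 : IntegrableOn (fun t => absF h p w t l) (Ioi 0) := by
      unfold absF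
      exact (i1.div_const _).sub (i2.const_mul _)
    have e3 : ∫ t in Ioi (0 : ℝ), absF h p w t l
        = (∑ k, p k) / l / (1 + l) - w l * ∑ j, max (h j l) 0 := by
      unfold absF
      rw [integral_sub (i1.div_const _) (i2.const_mul _), integral_div, i1', integral_const_mul, i2']
    rw [← e3]
    refine (ofReal_integral_eq_lintegral_ofReal i3 ?_).symm
    rw [Filter.EventuallyLE, ae_restrict_iff' measurableSet_Ioi]
    exact Filter.Eventually.of_forall (fun t ht => hFnn t ht l hl')
  calc ∫⁻ t in Ioi (0 : ℝ), ENNReal.ofReal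
        (∑ k, Real.log (1 + p k / t) - ∫ l in Ioi (0 : ℝ), w l * absN h t l)
      = ∫⁻ t in Ioi (0 : ℝ), ∫⁻ l in Ioi (0 : ℝ), ENNReal.ofReal (absF h p w t l) :=
        (setLIntegral_congr_fun measurableSet_Ioi step1).symm
    _ = ∫⁻ l in Ioi (0 : ℝ), ∫⁻ t in Ioi (0 : ℝ), ENNReal.ofReal (absF h p w t l) := by
        apply lintegral_lintegral_swap
        exact ((absF_measurable h hm p w hw).ennreal_ofReal).aemeasurable
    _ = _ := setLIntegral_congr_fun measurableSet_Ioi step2

/-- The inner integral at fixed `t`. -/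
theorem abs_inner (h : J → ℝ → ℝ) (hm : ∀ j, Measurable (h j)) (p : K → ℝ) (hp : ∀ k, 0 ≤ p k)
    (w : ℝ → ℝ) (hw : Measurable w) (hw0 : ∀ l, 0 < l → 0 ≤ w l)
    (hw1 : ∀ l, 0 < l → w l ≤ 1 / (1 + l))
    (hN : ∀ t, 0 < t → ∀ l, 0 < l → absN h t l ≤ absN0 p t l) {t : ℝ} (ht : 0 < t) :
    ∫ l in Ioi (0 : ℝ), w l * absN h t l ≤ ∑ k, Real.log (1 + p k / t) := by
  have i1 : IntegrableOn (fun l => absN0 p t l / (1 + l)) (Ioi 0) := by
    have : (fun l => absN0 p t l / (1 + l))
        = fun l => ∑ k, (if t * l < p k then (1 : ℝ) else 0) / (1 + l) := by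
      funext l; unfold absN0; rw [Finset.sum_div]
    rw [this]
    exact integrable_finsetSum _ (fun k _ => (integral_atom_l ht (hp k)).1)
  have i1' : ∫ l in Ioi (0 : ℝ), absN0 p t l / (1 + l) = ∑ k, Real.log (1 + p k / t) := by
    have : (fun l => absN0 p t l / (1 + l))
        = fun l => ∑ k, (if t * l < p k then (1 : ℝ) else 0) / (1 + l) := by
      funext l; unfold absN0; rw [Finset.sum_div]
    rw [this, integral_finsetSum _ (fun k _ => (integral_atom_l ht (hp k)).1)]
    exact Finset.sum_congr rfl (fun k _ => (integral_atom_l ht (hp k)).2)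
  have hmeas : Measurable (fun l => w l * absN h t l) := by
    apply hw.mul
    unfold absN
    apply Finset.measurable_sum
    intro j _
    apply Measurable.ite
    · exact measurableSet_lt measurable_const (hm j)
    · exact measurable_const
    · exact measurable_const
  have hle : ∀ l ∈ Ioi (0 : ℝ), w l * absN h t l ≤ absN0 p t l / (1 + l) := by
    intro l hl
    have hl' : 0 < l := hl
    have h1 : 0 < 1 + l := by positivity
    have h2 : w l * absN h t l ≤ 1 / (1 + l) * absN0 p t l :=
      mul_le_mul (hw1 l hl') (hN t ht l hl') (absN_nonneg _ _ _) (by positivity)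
    have h3 : 1 / (1 + l) * absN0 p t l = absN0 p t l / (1 + l) := by ring
    linarith
  have i2 : IntegrableOn (fun l => w l * absN h t l) (Ioi 0) := by
    refine Integrable.mono' i1 hmeas.aestronglyMeasurable ?_
    rw [ae_restrict_iff' measurableSet_Ioi]
    refine Filter.Eventually.of_forall (fun l hl => ?_)
    have hl' : 0 < l := hl
    rw [Real.norm_of_nonneg (mul_nonneg (hw0 l hl') (absN_nonneg _ _ _))]
    exact hle l hl
  rw [← i1']
  exact setIntegral_mono_on i2 i1 measurableSet_Ioi hle

end

end Vale.Agent.P358
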