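import Vale.Agent.Lib.P358.G.Defs
import Vale.Agent.Lib.P358.G.Tonelli

/-!
# P358, general parameters: layer cake comparison (pure measure theory)
-/

open MeasureTheory Set
open scoped ENNReal

namespace Vale.Agent.P358.G

/-- Layer cake for the primitive of the weight: a single eigenvalue. -/
lemma layer_atom (w : ℝ → ℝ) (hw : Measurable w) (hw0 : ∀ l, 0 < l → 0 ≤ w l)
    (hw1 : ∀ l, 0 < l → w l ≤ 1 / (1 + l)) {L : ℝ} (hL : 0 ≤ L) :
    IntegrableOn (fun l => w l * (if l < L then (1 : ℝ) else 0)) (Ioi 0) ∧
    ∫ l in Ioi (0 : ℝ), w l * (if l < L then (1 : ℝ) else 0) = pot w L := by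
  have e : (fun l => w l * (if l < L then (1 : ℝ) else 0)) = (Iio L).indicator w := by
    funext l
    by_cases h : l < L
    · simp [h]
    · simp [h]
  have hs : Iio L ∩ Ioi (0 : ℝ) = Ioo 0 L := by
    ext l; simp [and_comm]
  have hint : IntegrableOn w (Ioo 0 L) := by
    have hb : IntegrableOn (fun _ : ℝ => (1 : ℝ)) (Ioo 0 L) :=
      integrableOn_const (by simp) (by simp)
    refine Integrable.mono' hb hw.aestronglyMeasurable ?_
    rw [ae_restrict_iff' measurableSet_Ioo]
    refine Filter.Eventually.of_forall (fun l hl => ?_)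
    have hl' : 0 < l := hl.1
    rw [Real.norm_of_nonneg (hw0 l hl')]
    have h1 := hw1 l hl'
    have h2 : 1 / (1 + l) ≤ 1 := by
      rw [div_le_one (by positivity)]; linarith
    linarith
  constructor
  · rw [e, IntegrableOn, integrable_indicator_iff measurableSet_Iio, IntegrableOn,
      Measure.restrict_restrict measurableSet_Iio, hs]
    exact hint
  · rw [e, integral_indicator measurableSet_Iio, Measure.restrict_restrict measurableSet_Iio, hs,
      ← integral_Ioc_eq_integral_Ioo]
    unfold pot
    rw [intervalIntegral.integral_of_le hL]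

/-- The scalar curve. -/
noncomputable def hS (a x : ℝ) (_ : Unit) (l : ℝ) : ℝ := a / l - x

/-- Scalar atom. -/
noncomputable def pS (a : ℝ) (_ : Unit) : ℝ := a

lemma hS_measurable (a x : ℝ) (u : Unit) : Measurable (hS a x u) := by
  unfold hS
  fun_prop

/-- The scalar layer integral. -/
lemma scalar_layer (w : ℝ → ℝ) {a x t : ℝ} (ha : 0 ≤ a) (hx : 0 ≤ x) (ht : 0 < t) :
    ∫ l in Ioi (0 : ℝ), w l * absN (hS a x) t l = pot w (a / (t + x)) := by
  have htx : 0 < t + x := by positivity
  have hb : 0 ≤ a / (t + x) := div_nonneg ha htx.le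
  have e : ∀ l ∈ Ioi (0 : ℝ), w l * absN (hS a x) t l = (Iio (a / (t + x))).indicator w l := by
    intro l hl
    have hl' : 0 < l := hl
    unfold absN hS
    simp only [Finset.univ_unique, Finset.sum_singleton]
    have hiff : t < a / l - x ↔ l < a / (t + x) := by
      rw [lt_div_iff₀ htx, lt_sub_iff_add_lt, lt_div_iff₀ hl']
      constructor <;> intro h <;> nlinarith
    by_cases h : l < a / (t + x)
    · rw [if_pos (hiff.mpr h), indicator_of_mem (by exact h)]; ring
    · rw [if_neg (fun h' => h (hiff.mp h')), indicator_of_notMem (by exact h)]; ring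
  rw [setIntegral_congr_fun measurableSet_Ioi e, integral_indicator measurableSet_Iio,
    Measure.restrict_restrict measurableSet_Iio]
  have hs : Iio (a / (t + x)) ∩ Ioi (0 : ℝ) = Ioo 0 (a / (t + x)) := by
    ext l; simp [and_comm]
  rw [hs, ← integral_Ioc_eq_integral_Ioo]
  unfold pot
  rw [intervalIntegral.integral_of_le hb]

/-- Layer cake comparison. `ai` are the eigenvalues of `P`, `c k t` the eigenvalues of the dressed
matrix at `t` (no measurability in `t`), `g j` the sorted eigenvalues of `u P - X`, as functions of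
`u`. The conclusion has a measurable majorant `M t = ∫⁻ l, ofReal (f t l)` because no measurability
in `t` of the left hand side is available. -/
theorem layer_cake_compare {I J K : Type} [Fintype I] [Fintype J] [Fintype K]
    (ai : I → ℝ) (hai : ∀ i, 0 ≤ ai i) (c : K → ℝ → ℝ) (hc : ∀ k t, 0 < t → 0 ≤ c k t)
    (g : J → ℝ → ℝ) (hg : ∀ j, Measurable (g j))
    (w : ℝ → ℝ) (hwm : Measurable w) (hw0 : ∀ l, 0 < l → 0 ≤ w l)
    (hw1 : ∀ l, 0 < l → w l ≤ 1 / (1 + l))
    (x : ℝ) (hx : 0 ≤ x)
    (hsum : ∀ u, 0 < u → ∑ j, g j u = u * ∑ i, ai i - x)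
    (hcount1 : ∀ t l, 0 < t → 0 < l →
      (Finset.univ.filter fun j => t < g j l⁻¹).card ≤ (Finset.univ.filter fun k => l < c k t).card)
    (hcount2 : ∀ t l, 0 < t → 0 < l →
      (Finset.univ.filter fun j => t < g j l⁻¹).card ≤ (Finset.univ.filter fun i => l * t < ai i).card) :
    ∃ M : ℝ → ℝ≥0∞, Measurable M ∧
      (∀ t, 0 < t → ENNReal.ofReal (∑ i, Real.log (1 + ai i / t) - ∑ k, pot w (c k t)) ≤ M t) ∧
      ∫⁻ t in Ioi (0 : ℝ), M t ≤
        ∫⁻ t in Ioi (0 : ℝ), ENNReal.ofReal
          (Real.log (1 + (∑ i, ai i) / t) - pot w ((∑ i, ai i) / (t + x))) := by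
  classical
  set a := ∑ i, ai i with ha
  have ha0 : 0 ≤ a := Finset.sum_nonneg (fun i _ => hai i)
  set h : J → ℝ → ℝ := fun j l => g j l⁻¹ with hh
  have hhm : ∀ j, Measurable (h j) := fun j => (hg j).comp measurable_inv
  have hNle : ∀ t, 0 < t → ∀ l, 0 < l → absN h t l ≤ absN0 ai t l := by
    intro t ht l hl
    have := hcount2 t l ht hl
    unfold absN absN0
    rw [← Finset.natCast_card_filter, ← Finset.natCast_card_filter]
    have e : (Finset.univ.filter fun i => t * l < ai i) = (Finset.univ.filter fun i => l * t < ai i) := by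
      ext i; simp [mul_comm]
    rw [e]
    exact_mod_cast this
  set Θ : ℝ → ℝ := fun t => ∫ l in Ioi (0 : ℝ), w l * absN h t l with hΘ
  have hmeasΘ : Measurable Θ := by
    have hf : StronglyMeasurable (Function.uncurry (fun (t l : ℝ) => w l * absN h t l)) := by
      apply Measurable.stronglyMeasurable
      apply Measurable.mul (hwm.comp measurable_snd)
      unfold absN
      apply Finset.measurable_sum
      intro j _
      apply Measurable.ite
      · exact measurableSet_lt measurable_fst ((hhm j).comp measurable_snd)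
      · exact measurable_const
      · exact measurable_const
    exact (hf.integral_prod_right (ν := volume.restrict (Ioi (0 : ℝ)))).measurable
  have hmeasL : Measurable (fun t : ℝ => ∑ i, Real.log (1 + ai i / t)) := by
    apply Finset.measurable_sum
    intro k _
    exact Real.measurable_log.comp (measurable_const.add (measurable_const.div measurable_id))
  refine ⟨fun t => ENNReal.ofReal (∑ i, Real.log (1 + ai i / t) - Θ t),
    (hmeasL.sub hmeasΘ).ennreal_ofReal, ?_, ?_⟩
  · -- pointwise
    intro t ht
    apply ENNReal.ofReal_le_ofReal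
    have hle : Θ t ≤ ∑ k, pot w (c k t) := by
      have hev : ∀ k, 0 ≤ c k t := fun k => hc k t ht
      have hsumI : IntegrableOn (fun l => ∑ k, w l * (if l < c k t then (1 : ℝ) else 0)) (Ioi 0) :=
        integrable_finsetSum _ (fun k _ => (layer_atom w hwm hw0 hw1 (hev k)).1)
      have hsum' : ∫ l in Ioi (0 : ℝ), ∑ k, w l * (if l < c k t then (1 : ℝ) else 0)
          = ∑ k, pot w (c k t) := by
        rw [integral_finsetSum _ (fun k _ => (layer_atom w hwm hw0 hw1 (hev k)).1)]
        exact Finset.sum_congr rfl (fun k _ => (layer_atom w hwm hw0 hw1 (hev k)).2)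
      have hle' : ∀ l ∈ Ioi (0 : ℝ), w l * absN h t l
          ≤ ∑ k, w l * (if l < c k t then (1 : ℝ) else 0) := by
        intro l hl
        have hl' : 0 < l := hl
        rw [← Finset.mul_sum]
        apply mul_le_mul_of_nonneg_left _ (hw0 l hl')
        unfold absN
        rw [← Finset.natCast_card_filter, ← Finset.natCast_card_filter]
        exact_mod_cast hcount1 t l ht hl'
      have hmeas : Measurable (fun l => w l * absN h t l) := by
        apply hwm.mul
        unfold absN
        apply Finset.measurable_sum
        intro j _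
        apply Measurable.ite
        · exact measurableSet_lt measurable_const (hhm j)
        · exact measurable_const
        · exact measurable_const
      have hint : IntegrableOn (fun l => w l * absN h t l) (Ioi 0) := by
        refine Integrable.mono' hsumI hmeas.aestronglyMeasurable ?_
        rw [ae_restrict_iff' measurableSet_Ioi]
        refine Filter.Eventually.of_forall (fun l hl => ?_)
        have hl' : 0 < l := hl
        rw [Real.norm_of_nonneg (mul_nonneg (hw0 l hl') (absN_nonneg _ _ _))]
        exact hle' l hl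
      rw [← hsum']
      exact setIntegral_mono_on hint hsumI measurableSet_Ioi hle'
    linarith
  · -- integrated
    have T1 := tonelli_abs h hhm ai hai w hwm hw0 hw1 hNle
    have hNS : ∀ t, 0 < t → ∀ l, 0 < l → absN (hS a x) t l ≤ absN0 (pS a) t l := by
      intro t _ l hl
      unfold absN absN0 hS pS
      simp only [Finset.univ_unique, Finset.sum_singleton]
      by_cases h' : t < a / l - x
      · have : t * l < a := by
          have h1 : t + x < a / l := by linarith
          rw [lt_div_iff₀ hl] at h1
          nlinarith [mul_nonneg hx hl.le]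
        simp [h', this]
      · rw [if_neg h']
        split_ifs <;> norm_num
    have T2 := tonelli_abs (hS a x) (hS_measurable a x) (pS a) (fun _ => ha0) w hwm hw0 hw1 hNS
    have e2 : ∫⁻ t in Ioi (0 : ℝ), ENNReal.ofReal
          (Real.log (1 + a / t) - pot w (a / (t + x)))
        = ∫⁻ l in Ioi (0 : ℝ), ENNReal.ofReal
          (a / l / (1 + l) - w l * max (a / l - x) 0) := by
      have e3 : ∀ t ∈ Ioi (0 : ℝ), ENNReal.ofReal (Real.log (1 + a / t) - pot w (a / (t + x)))
          = ENNReal.ofReal (∑ k : Unit, Real.log (1 + pS a k / t)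
              - ∫ l in Ioi (0 : ℝ), w l * absN (hS a x) t l) := by
        intro t ht
        rw [scalar_layer w ha0 hx ht]
        simp [pS]
      rw [setLIntegral_congr_fun measurableSet_Ioi e3, T2]
      apply setLIntegral_congr_fun measurableSet_Ioi
      intro l _
      simp [pS, hS]
    rw [e2]
    show ∫⁻ t in Ioi (0 : ℝ), ENNReal.ofReal
        (∑ i, Real.log (1 + ai i / t) - ∫ l in Ioi (0 : ℝ), w l * absN h t l) ≤ _
    rw [T1]
    apply lintegral_mono_ae
    rw [ae_restrict_iff' measurableSet_Ioi]
    refine Filter.Eventually.of_forall (fun l hl => ?_)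
    have hl' : 0 < l := hl
    apply ENNReal.ofReal_le_ofReal
    have h1 : max (a / l - x) 0 ≤ ∑ j, max (h j l) 0 := by
      apply max_le
      · have e4 := hsum l⁻¹ (inv_pos.mpr hl')
        calc a / l - x = ∑ j, g j l⁻¹ := by rw [e4]; ring
          _ ≤ ∑ j, max (h j l) 0 := by
            apply Finset.sum_le_sum
            intro j _
            exact le_max_left _ _
      · exact Finset.sum_nonneg (fun j _ => le_max_right _ _)
    have h2 := mul_le_mul_of_nonneg_left h1 (hw0 l hl')
    linarith

end Vale.Agent.P358.G
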