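import Vale.Agent.Lib.P358.G.Weight
import Vale.Agent.Lib.P358.G.Decouple
import Vale.Agent.Lib.P358.G.LayerCake
import Vale.Agent.Lib.P358.G.Count

/-!
# P358, general parameters: the tree inequality
-/

open Matrix Real MeasureTheory Set
open scoped ComplexOrder ENNReal

namespace Vale.Agent.P358.G

variable {n r r₁ r₂ ω : Type}
variable [Fintype n] [DecidableEq n]
variable [Fintype r] [DecidableEq r] [Fintype r₁] [DecidableEq r₁] [Fintype r₂] [DecidableEq r₂]
variable [Fintype ω] [DecidableEq ω]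

lemma eigF_nonneg (M : Matrix n n ℂ) (h : M.PosSemidef) (k : n) : 0 ≤ eigF M k := by
  rw [eigF_eq M h.isHermitian]
  exact h.eigenvalues_nonneg k

lemma sum_eigF (M : Matrix n n ℂ) (h : M.IsHermitian) : ∑ k, eigF M k = (M.trace).re := by
  simp only [eigF_eq M h]
  exact sum_eigenvalues_eq_trace M h

lemma trace_re_nonneg (M : Matrix n n ℂ) (h : M.PosSemidef) : 0 ≤ (M.trace).re :=
  (Complex.le_def.mp h.trace_nonneg).1

lemma scal_posSemidef (s : ℝ) (hs : 0 ≤ s) : (scal s).PosSemidef := by
  have e : scal s = scal √s * (scal √s)ᴴ := by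
    ext i j
    have h : (√s : ℂ) * (√s : ℂ) = (s : ℂ) := by
      rw [← Complex.ofReal_mul, Real.mul_self_sqrt hs]
    simp [scal, Matrix.mul_apply, conjTranspose_apply, h]
  rw [e]
  exact posSemidef_self_mul_conjTranspose _

/-- Side lemma. -/
theorem side_lemma (A : Matrix r ω ℂ) (X : Matrix r r ℂ) (hX : X.PosSemidef)
    (w : ℝ → ℝ) (hwm : Measurable w) (hw0 : ∀ l, 0 < l → 0 ≤ w l)
    (hw1 : ∀ l, 0 < l → w l ≤ 1 / (1 + l)) :
    ∃ M : ℝ → ℝ≥0∞, Measurable M ∧
      (∀ t, 0 < t → ENNReal.ofReal (LD (A * Aᴴ) t - ∑ k, pot w (eigF (dress A X t) k)) ≤ M t) ∧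
      ∫⁻ t in Ioi (0 : ℝ), M t ≤
        ∫⁻ t in Ioi (0 : ℝ), ENNReal.ofReal
          (Real.log (1 + ((A * Aᴴ).trace).re / t)
            - pot w (((A * Aᴴ).trace).re / (t + (X.trace).re))) := by
  obtain ⟨g, hg, hsum, hc1, hc2⟩ := side_data A X hX
  have hP : (A * Aᴴ).PosSemidef := posSemidef_self_mul_conjTranspose A
  have htr : ∑ i, eigF (A * Aᴴ) i = ((A * Aᴴ).trace).re := sum_eigF _ hP.isHermitian
  obtain ⟨M, hM, hle, hint⟩ := layer_cake_compare (eigF (A * Aᴴ)) (eigF_nonneg _ hP)
    (fun k t => eigF (dress A X t) k) (fun k t ht => eigF_nonneg _ (dress_posSemidef A X hX ht) k)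
    g hg w hwm hw0 hw1 (X.trace).re (trace_re_nonneg X hX)
    (fun u _ => by rw [htr, hsum u]) hc1 hc2
  rw [htr] at hint
  refine ⟨M, hM, ?_, hint⟩
  intro t ht
  have := hle t ht
  rw [LD_eq_sum _ hP ht]
  simpa only [eigF_eq _ hP.isHermitian] using this

/-- The real integral is at most the upper integral of the positive part. -/
lemma ofReal_setIntegral_le {f : ℝ → ℝ} {s : Set ℝ} (hf : IntegrableOn f s) :
    ENNReal.ofReal (∫ t in s, f t) ≤ ∫⁻ t in s, ENNReal.ofReal (f t) := by
  have h1 : Integrable (fun t => max (f t) 0) (volume.restrict s) := hf.integrable.pos_part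
  have h2 : ∫ t in s, f t ≤ ∫ t in s, max (f t) 0 :=
    integral_mono hf.integrable h1 (fun t => le_max_left _ _)
  calc ENNReal.ofReal (∫ t in s, f t) ≤ ENNReal.ofReal (∫ t in s, max (f t) 0) :=
        ENNReal.ofReal_le_ofReal h2
    _ = ∫⁻ t in s, ENNReal.ofReal (max (f t) 0) :=
        ofReal_integral_eq_lintegral_ofReal h1 (Filter.Eventually.of_forall fun t => le_max_right _ _)
    _ = ∫⁻ t in s, ENNReal.ofReal (f t) := by
        congr 1
        funext t
        rcases le_total (f t) 0 with h | h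
        · rw [max_eq_right h, ENNReal.ofReal_of_nonpos h, ENNReal.ofReal_zero]
        · rw [max_eq_left h]

/-- Potentials of bounded measurable weights are measurable. -/
lemma pot_W_continuous {a x y z : ℝ} (ha : 0 ≤ a) (hx : 0 ≤ x) (hy : 0 ≤ y) (hz : 0 ≤ z) :
    Continuous (pot (W a x y z)) := by
  have hb : ∀ l, ‖W a x y z l‖ ≤ 1 := by
    intro l
    rcases le_or_gt l 0 with hl | hl
    · have : W a x y z l = 0 := by
        unfold W
        rw [if_neg]
        have h1 : a / l ≤ 0 := div_nonpos_of_nonneg_of_nonpos ha hl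
        linarith
      rw [this]
      simp
    · rw [Real.norm_of_nonneg (W_nonneg ha hx hy hz hl)]
      refine (W_le ha hx hy hz hl).trans ?_
      rw [div_le_one (by linarith)]
      linarith
  have hii : ∀ p q : ℝ, IntervalIntegrable (W a x y z) volume p q := by
    intro p q
    refine (intervalIntegrable_const (c := (1 : ℝ))).mono_fun
      (W_measurable a x y z).aestronglyMeasurable ?_
    refine Filter.Eventually.of_forall fun l => ?_
    simpa using hb l
  exact intervalIntegral.continuous_primitive hii 0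

/-- The tree inequality. -/
theorem tree_inequality (A : Matrix r₁ ω ℂ) (B : Matrix r₂ ω ℂ) (X : Matrix r₁ r₁ ℂ)
    (Z : Matrix r₂ r₂ ℂ) (hX : X.PosSemidef) (hZ : Z.PosSemidef) :
    Jval (scal √((A * Aᴴ).trace).re) (scal √((B * Bᴴ).trace).re)
        (scal (X.trace).re) (scal (Z.trace).re) ≤ Jval A B X Z := by
  have hPA : (A * Aᴴ).PosSemidef := posSemidef_self_mul_conjTranspose A
  have hPB : (B * Bᴴ).PosSemidef := posSemidef_self_mul_conjTranspose B
  set a := ((A * Aᴴ).trace).re with ha_def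
  set y := ((B * Bᴴ).trace).re with hy_def
  set x := (X.trace).re with hx_def
  set z := (Z.trace).re with hz_def
  have ha : 0 ≤ a := trace_re_nonneg _ hPA
  have hy : 0 ≤ y := trace_re_nonneg _ hPB
  have hx : 0 ≤ x := trace_re_nonneg _ hX
  have hz : 0 ≤ z := trace_re_nonneg _ hZ
  have hsc : ∀ s : ℝ, 0 ≤ s → (scal s).PosSemidef := scal_posSemidef
  obtain ⟨ij, vj⟩ := jfun_integral A B X Z hX hZ
  obtain ⟨ijs, vjs⟩ := jfun_integral (scal √a) (scal √y) (scal x) (scal z) (hsc x hx) (hsc z hz)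
  obtain ⟨MA, hMAm, hMA, hMAi⟩ := side_lemma A X hX (W a x y z) (W_measurable _ _ _ _)
    (fun l hl => W_nonneg ha hx hy hz hl) (fun l hl => W_le ha hx hy hz hl)
  obtain ⟨MB, hMBm, hMB, hMBi⟩ := side_lemma B Z hZ (W y z a x) (W_measurable _ _ _ _)
    (fun l hl => W_nonneg hy hz ha hx hl) (fun l hl => W_le hy hz ha hx hl)
  -- pointwise bound
  have hpt : ∀ t, 0 < t → ENNReal.ofReal (-jfun A B X Z t) ≤ MA t + MB t := by
    intro t ht
    have hdec := decouple (dress A X t) (dress B Z t) (dress_posSemidef A X hX ht)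
      (dress_posSemidef B Z hZ ht) (pot (W a x y z)) (pot (W y z a x))
      (fun lam mu hl hm => W2 ha hx hy hz hl hm)
    calc ENNReal.ofReal (-jfun A B X Z t)
        ≤ ENNReal.ofReal ((LD (A * Aᴴ) t - ∑ k, pot (W a x y z) (eigF (dress A X t) k))
            + (LD (B * Bᴴ) t - ∑ k, pot (W y z a x) (eigF (dress B Z t) k))) := by
          apply ENNReal.ofReal_le_ofReal
          unfold jfun
          linarith
      _ ≤ _ := ENNReal.ofReal_add_le
      _ ≤ MA t + MB t := add_le_add (hMA t ht) (hMB t ht)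
  -- scalars
  set hA : ℝ → ℝ := fun t => Real.log (1 + a / t) - pot (W a x y z) (a / (t + x)) with hA_def
  set hB : ℝ → ℝ := fun t => Real.log (1 + y / t) - pot (W y z a x) (y / (t + z)) with hB_def
  have hpot0 : ∀ b c d e : ℝ, pot (W b c d e) 0 = 0 := fun b c d e => by simp [pot]
  have hA_nn : ∀ t, 0 < t → 0 ≤ hA t := by
    intro t ht
    have h1 : pot (W a x y z) (a / (t + x)) + pot (W y z a x) 0 ≤
        Real.log (1 + a / (t + x) + 0) :=
      W2 ha hx hy hz (by positivity) le_rfl
    rw [hpot0, add_zero, add_zero] at h1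
    have h2 : Real.log (1 + a / (t + x)) ≤ Real.log (1 + a / t) := by
      apply Real.log_le_log (by positivity)
      have : a / (t + x) ≤ a / t := div_le_div_of_nonneg_left ha ht (by linarith)
      linarith
    simp only [hA_def]
    linarith
  have hB_nn : ∀ t, 0 < t → 0 ≤ hB t := by
    intro t ht
    have h1 : pot (W a x y z) 0 + pot (W y z a x) (y / (t + z)) ≤
        Real.log (1 + 0 + y / (t + z)) :=
      W2 ha hx hy hz le_rfl (by positivity)
    rw [hpot0, zero_add, add_zero] at h1
    have h2 : Real.log (1 + y / (t + z)) ≤ Real.log (1 + y / t) := by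
      apply Real.log_le_log (by positivity)
      have : y / (t + z) ≤ y / t := div_le_div_of_nonneg_left hy ht (by linarith)
      linarith
    simp only [hB_def]
    linarith
  have hs_eq : ∀ t, 0 < t → -jfun (scal √a) (scal √y) (scal x) (scal z) t = hA t + hB t := by
    intro t ht
    rw [jfun_scal ha hx hy hz ht]
    have := W1 ha hx hy hz ht
    simp only [hA_def, hB_def]
    linarith
  have hA_m : Measurable (fun t => ENNReal.ofReal (hA t)) := by
    apply ENNReal.measurable_ofReal.comp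
    have c1 := (pot_W_continuous ha hx hy hz).measurable
    simp only [hA_def]
    fun_prop
  -- the chain
  have hJs_nn : 0 ≤ ∫ t in Ioi (0 : ℝ), -jfun (scal √a) (scal √y) (scal x) (scal z) t := by
    apply setIntegral_nonneg measurableSet_Ioi
    intro t ht
    rw [hs_eq t ht]
    exact add_nonneg (hA_nn t ht) (hB_nn t ht)
  have key : ENNReal.ofReal (∫ t in Ioi (0 : ℝ), -jfun A B X Z t) ≤
      ENNReal.ofReal (∫ t in Ioi (0 : ℝ), -jfun (scal √a) (scal √y) (scal x) (scal z) t) := by
    calc ENNReal.ofReal (∫ t in Ioi (0 : ℝ), -jfun A B X Z t)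
        ≤ ∫⁻ t in Ioi (0 : ℝ), ENNReal.ofReal (-jfun A B X Z t) :=
          ofReal_setIntegral_le ij.neg
      _ ≤ ∫⁻ t in Ioi (0 : ℝ), (MA t + MB t) :=
          setLIntegral_mono' measurableSet_Ioi hpt
      _ = (∫⁻ t in Ioi (0 : ℝ), MA t) + ∫⁻ t in Ioi (0 : ℝ), MB t := lintegral_add_left hMAm _
      _ ≤ (∫⁻ t in Ioi (0 : ℝ), ENNReal.ofReal (hA t)) + ∫⁻ t in Ioi (0 : ℝ), ENNReal.ofReal (hB t) :=
          add_le_add hMAi hMBi
      _ = ∫⁻ t in Ioi (0 : ℝ), (ENNReal.ofReal (hA t) + ENNReal.ofReal (hB t)) :=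
          (lintegral_add_left hA_m _).symm
      _ = ∫⁻ t in Ioi (0 : ℝ), ENNReal.ofReal
            (-jfun (scal √a) (scal √y) (scal x) (scal z) t) := by
          apply setLIntegral_congr_fun measurableSet_Ioi
          intro t ht
          simp only
          rw [hs_eq t ht, ENNReal.ofReal_add (hA_nn t ht) (hB_nn t ht)]
      _ = ENNReal.ofReal (∫ t in Ioi (0 : ℝ),
            -jfun (scal √a) (scal √y) (scal x) (scal z) t) := by
          symm
          apply ofReal_integral_eq_lintegral_ofReal ijs.neg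
          filter_upwards [ae_restrict_mem measurableSet_Ioi] with t ht
          show 0 ≤ -jfun (scal √a) (scal √y) (scal x) (scal z) t
          rw [hs_eq t ht]
          exact add_nonneg (hA_nn t ht) (hB_nn t ht)
  have key2 := (ENNReal.ofReal_le_ofReal_iff hJs_nn).mp key
  rw [integral_neg, integral_neg, vj, vjs] at key2
  linarith

end Vale.Agent.P358.G
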