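import Vale.Agent.Lib.P358.G.Defs
import Vale.Agent.Lib.P358.G.Dual

/-!
# P358, general parameters: the weight `W` and its potentials
-/

open Matrix Real MeasureTheory Set
open scoped ComplexOrder

namespace Vale.Agent.P358.G

lemma W_eq (a x y z : ℝ) : W a x y z = potW a x y z := rfl

lemma pot_W_eq (a x y z L : ℝ) : pot (W a x y z) L = phiW a x y z L := rfl

lemma W_measurable (a x y z : ℝ) : Measurable (W a x y z) := potW_measurable a x y z

lemma W_nonneg {a x y z l : ℝ} (ha : 0 ≤ a) (hx : 0 ≤ x) (hy : 0 ≤ y) (hz : 0 ≤ z) (_hl : 0 < l) :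
    0 ≤ W a x y z l := potW_nonneg ha hx hy hz l

lemma W_le {a x y z l : ℝ} (ha : 0 ≤ a) (hx : 0 ≤ x) (hy : 0 ≤ y) (hz : 0 ≤ z) (hl : 0 < l) :
    W a x y z l ≤ 1 / (1 + l) := potW_le ha hx hy hz hl.le

/-- The potentials sum to the logarithm on the scalar curve. -/
theorem W1 {a x y z t : ℝ} (ha : 0 ≤ a) (hx : 0 ≤ x) (hy : 0 ≤ y) (hz : 0 ≤ z) (ht : 0 < t) :
    pot (W a x y z) (a / (t + x)) + pot (W y z a x) (y / (t + z))
      = Real.log (1 + a / (t + x) + y / (t + z)) := phiW_curve ha hx hy hz ht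

/-- The potentials are dominated by the logarithm everywhere. -/
theorem W2 {a x y z lam mu : ℝ} (ha : 0 ≤ a) (hx : 0 ≤ x) (hy : 0 ≤ y) (hz : 0 ≤ z)
    (hlam : 0 ≤ lam) (hmu : 0 ≤ mu) :
    pot (W a x y z) lam + pot (W y z a x) mu ≤ Real.log (1 + lam + mu) :=
  phiW_sep ha hx hy hz hlam hmu

end Vale.Agent.P358.G
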